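import Vale.Agent.P159.T1.S.H757.W
import Vale.Agent.P159.T1.D.H407.Tilt
import Vale.Agent.P159.T1.H775.EN

/-!
# P159 stage 2, S.W: properties of the layer function, one tip and both tips
-/

namespace Vale.Agent.P159.T1.S.H757

open Vale.Agent.P159.T1.D Vale.Agent.P159.T1.H565

variable {q : ℕ} {m : ℝ}

/-! ### supports -/

lemma wz_up {f : Z2} (h : 0 ≤ f.2) : wz q m f = 0 := by
  unfold wz
  rw [if_neg (by omega), if_neg (by omega)]

lemma wz_gap {f : Z2} (h : f.2 = -1) (h1 : 0 ≤ f.1) : wz q m f = 0 := by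
  unfold wz
  rw [if_neg (by omega), if_neg (by omega)]

lemma wz_right {f : Z2} (h1 : 0 ≤ f.1) : wz q m f = 0 := by
  unfold wz
  rw [if_neg (by omega), if_neg (by omega)]

lemma wz_slit_one (hm : 0 < m) {f : Z2} (h : f.2 = -1) (h1 : f.1 ≤ -1)
    (h2 : -(f.1 : ℝ) ≤ m) : wz q m f = 1 := by
  unfold wz
  rw [if_pos ⟨h, h1⟩]
  exact xi_one hm h2

/-- the support: the slit row and the cone without its last layer, up to distance `2 m` -/
lemma wz_supp (hq : 1 ≤ q) (hm : 0 < m) {f : Z2} (h : wz q m f ≠ 0) :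
    -(f.1 : ℝ) < 2 * m ∧ ((f.2 = -1 ∧ f.1 ≤ -1) ∨
      (f ∈ cone q ∧ (f.1, f.2 - 1) ∈ cone q ∧ (f.1 + 1, f.2) ∈ cone q)) := by
  have hx : ∀ x : ℝ, xi m x ≠ 0 → x < 2 * m := by
    intro x hx
    by_contra hc
    exact hx (xi_zero hm (not_lt.1 hc))
  unfold wz at h
  split_ifs at h with h1 h2
  · exact ⟨hx _ h, Or.inl h1⟩
  · have h3 := right_ne_zero_of_mul h
    have h4 : (f.1 : ℝ) ≤ -2 := by exact_mod_cast h2.2
    have h5 := om_pos hq (by linarith) h3
    have h6 : (q : ℤ) * (-f.2) < -f.1 - 1 := by exact_mod_cast h5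
    have hq' : (1 : ℤ) ≤ q := by exact_mod_cast hq
    refine ⟨hx _ (left_ne_zero_of_mul h), Or.inr ⟨⟨h2.1, ?_⟩, ⟨?_, ?_⟩, ⟨?_, ?_⟩⟩⟩
    · nlinarith
    · show f.2 - 1 ≤ -2
      omega
    · show (q : ℤ) * (-1 - (f.2 - 1)) ≤ -f.1
      have : (q : ℤ) * (-1 - (f.2 - 1)) = (q : ℤ) * (-f.2) := by ring
      omega
    · show f.2 ≤ -2
      omega
    · show (q : ℤ) * (-1 - f.2) ≤ -(f.1 + 1)
      have : (q : ℤ) * (-1 - f.2) = (q : ℤ) * (-f.2) - q := by ring
      omega
  · exact absurd rfl h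

/-- the layer function does not see the charges `ro` -/
lemma wz_ro (hq : 1 ≤ q) (hm : 0 < m) (Y V : ℝ) (Γ : ℝ → ℝ) (f : Z2) :
    ro Y V q Γ f * wz q m f = 0 := by
  by_contra hc
  have h1 := left_ne_zero_of_mul hc
  have h2 := right_ne_zero_of_mul hc
  rcases (wz_supp hq hm h2).2 with h3 | ⟨_, h4, h5⟩
  · apply h1
    refine ro_of_notMem fun h => ?_
    have : f.2 ≤ -2 := h.1
    omega
  · obtain ⟨x, y⟩ := f
    obtain ⟨h6, h7⟩ := ro_support h1
    rcases h7 with h7 | h7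
    · exact h7 h4
    · exact h7 h5

/-! ### pointwise bound of the gradient -/

lemma md_bound (hq : 1 ≤ q) (hm : 0 < m) (e : Bnd) :
    |md (wz q m) e| * (|(e.1.1 : ℝ)| + |(e.1.2 : ℝ)| + 1) ≤ 18 / ang q := by
  have h2 := ang_pos' hq
  have h1 := ang_le_one hq
  have h18 : 18 ≤ 18 / ang q := by
    rw [le_div_iff₀ h2]
    nlinarith
  by_cases h : dr (wz q m) e = 0
  · unfold md
    rw [h, ite_self, abs_zero, zero_mul]
    positivity
  by_cases hneg : e.1.2 < 0
  · unfold md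
    rw [if_pos hneg]
    by_cases he : -1 ≤ e.1.1
    · have h3 := dr_exc hq hneg he h
      have h4 := dr_le_one hq m e
      have h5 : |(e.1.1 : ℝ)| + |(e.1.2 : ℝ)| + 1 ≤ 4 := by
        simp only [E0, Finset.mem_insert, Finset.mem_singleton] at h3
        rcases h3 with rfl | rfl | rfl | rfl <;> norm_num
      have h6 : 0 ≤ |(e.1.1 : ℝ)| + |(e.1.2 : ℝ)| + 1 := by positivity
      nlinarith [abs_nonneg (dr (wz q m) e)]
    · obtain ⟨X, K, hX, hK, hbo⟩ := bo_of hneg he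
      rw [hbo] at h ⊢
      have h3 := (dr_rel hq hm hX hK h).1
      have h4 := dr_crude hq hm hX hK e.2
      have hKX : K ≤ X + 2 := by
        by_contra hc
        push Not at hc
        have h8 : q * (X + 3) ≤ q * K := Nat.mul_le_mul_left _ hc
        have h9 : X + 2 ≤ q * (X + 2) := Nat.le_mul_of_pos_left _ hq
        have h10 : q * (X + 3) = q * (X + 2) + q := by ring
        omega
      have hX1 : (1 : ℝ) ≤ X := by exact_mod_cast hX
      have hKX' : (K : ℝ) ≤ X + 2 := by exact_mod_cast hKX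
      have hK0 : (0 : ℝ) ≤ K := Nat.cast_nonneg K
      have h5 : |((bo X K e.2).1.1 : ℝ)| + |((bo X K e.2).1.2 : ℝ)| + 1 ≤ 6 * X := by
        unfold bo
        simp only
        push_cast
        rw [abs_neg, abs_neg, abs_of_nonneg (by linarith : (0 : ℝ) ≤ (X : ℝ) + 1),
          abs_of_nonneg hK0]
        linarith
      calc |dr (wz q m) (bo X K e.2)| *
            (|((bo X K e.2).1.1 : ℝ)| + |((bo X K e.2).1.2 : ℝ)| + 1) ≤
            3 / (ang q * X) * (6 * X) :=
            mul_le_mul h4 h5 (by positivity) (by positivity)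
        _ = 18 / ang q := by
          field_simp
          norm_num
  · unfold md
    rw [if_neg hneg, abs_zero, zero_mul]
    positivity

/-! ### energy of the stream function field -/

lemma clp_anti {a A A' : ℝ} (ha : 0 < a) (haA : a ≤ A) (hA : A ≤ A') (x y : ℝ) :
    |clp a A x - clp a A y| ≤ |clp a A' x - clp a A' y| := by
  have h1 : Real.log a ≤ Real.log A := Real.log_le_log ha haA
  have h2 : Real.log A ≤ Real.log A' := Real.log_le_log (ha.trans_le haA) hA
  have e : ∀ z, clp a A z = min (clp a A' z) (Real.log A) := by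
    intro z
    unfold clp
    rw [min_max_distrib_right, min_assoc, min_eq_right h2, min_eq_left h1]
  rw [e, e]
  refine (abs_min_sub_min_le_max _ _ _ _).trans ?_
  rw [sub_self, abs_zero]
  exact max_le le_rfl (abs_nonneg _)

/-- energy of the field in the cone -/
theorem kf_energy (hq : 1 ≤ q) {n0 : ℕ} (hn : 8 ≤ n0) : ∃ C : ℝ, ∀ (r : ℕ) (m : ℝ), 1 ≤ r →
    (n0 : ℝ) ≤ m → m ≤ (r : ℝ) / 4 → ∀ S : Finset Bnd,
      ∑ e ∈ S, Kf q (1 / ang q) 0 (clp n0 m) e ^ 2 ≤ 1 / ang q * Real.log r + C := by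
  obtain ⟨C, hC⟩ := H775.stmtEN q (1 / ang q) 0 n0 hq hn
  have h2 := ang_pos' hq
  refine ⟨C, fun r m hr hnm hm S => ?_⟩
  have h := hC r hr S
  have e : (1 / ang q) ^ 2 * ang q + 0 ^ 2 * (2 * Real.pi - ang q) = 1 / ang q := by
    field_simp
    ring
  rw [e] at h
  refine le_trans (Finset.sum_le_sum fun e _ => ?_) h
  unfold Kf
  rw [mul_pow, mul_pow]
  refine mul_le_mul_of_nonneg_left ?_ (sq_nonneg _)
  rw [← sq_abs, ← sq_abs (gs (fun P => clp (n0 : ℝ) ((r : ℝ) / 4) (tau P)) e)]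
  refine pow_le_pow_left₀ (abs_nonneg _) ?_ 2
  exact clp_anti (by
    have : (8 : ℝ) ≤ n0 := by exact_mod_cast hn
    linarith) hnm hm _ _

/-! ### both tips -/

/-- the layer function of both tips -/
noncomputable def wz2 (q : ℕ) (m : ℝ) (r : ℕ) (f : Z2) : ℝ := wz q m f + wz q m (mir r f)

/-- the stream function field of both tips -/
noncomputable def Kf2 (q n0 : ℕ) (m : ℝ) (r : ℕ) (e : Bnd) : ℝ :=
  Kf q (1 / ang q) 0 (clp n0 m) e + mB r (Kf q (1 / ang q) 0 (clp n0 m)) e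

lemma mirB_row (r : ℕ) (e : Bnd) : (mirB r e).1.2 = e.1.2 := by
  unfold mirB
  split_ifs <;> rfl

lemma dr_mir (r : ℕ) (w : Z2 → ℝ) (e : Bnd) :
    dr (fun f => w (mir r f)) e = mB r (dr w) e := by
  obtain ⟨⟨i, j⟩, d⟩ := e
  cases d
  · simp only [dr, mB, mirB, lf, rt, mir, Bool.false_eq_true, if_false]
  · simp only [dr, mB, mirB, lf, rt, mir, if_true]
    have e1 : (r : ℤ) - 1 - (i - 1) = (r : ℤ) - i := by ring
    have e2 : (r : ℤ) - i - 1 = (r : ℤ) - 1 - i := by ring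
    rw [e1, e2]
    ring

lemma md_mir (r : ℕ) (w : Z2 → ℝ) (e : Bnd) :
    md (fun f => w (mir r f)) e = mB r (md w) e := by
  unfold md
  rw [dr_mir]
  unfold mB
  simp only [mirB_row]
  split_ifs <;> simp

lemma md_add (w w' : Z2 → ℝ) (e : Bnd) :
    md (fun f => w f + w' f) e = md w e + md w' e := by
  unfold md dr
  split_ifs
  · ring
  · ring

lemma sum_mB (r : ℕ) (F : Bnd → ℝ) (S : Finset Bnd) :
    ∑ e ∈ S, mB r F e ^ 2 = ∑ e ∈ S.image (mirB r), F e ^ 2 := by
  have hinj : Function.Injective (mirB r) := fun a b h => by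
    rw [← mirB_mirB r a, h, mirB_mirB]
  rw [Finset.sum_image fun a _ b _ h => hinj h]
  refine Finset.sum_congr rfl fun e _ => ?_
  unfold mB
  split_ifs
  · ring
  · rfl

/-- **the error field of both tips is square summable, uniformly in the box** -/
theorem sum_tot2 (hq : 1 ≤ q) {n0 : ℕ} (hn : 1 ≤ n0) : ∃ C : ℝ, 0 < C ∧ ∀ m : ℝ, 1 ≤ m →
    ∀ (r : ℕ) (S : Finset Bnd),
      ∑ e ∈ S, (Kf2 q n0 m r e + md (wz2 q m r) e) ^ 2 ≤ C := by
  obtain ⟨C, hC, h⟩ := sum_tot hq hn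
  refine ⟨4 * C, by positivity, fun m hm r S => ?_⟩
  set F : Bnd → ℝ := fun e => Kf q (1 / ang q) 0 (clp n0 m) e + md (wz q m) e with hF
  have e1 : ∀ e, Kf2 q n0 m r e + md (wz2 q m r) e = F e + mB r F e := by
    intro e
    have h1 : md (wz2 q m r) e = md (wz q m) e + mB r (md (wz q m)) e := by
      have h2 := md_add (wz q m) (fun f => wz q m (mir r f)) e
      rw [md_mir] at h2
      exact h2
    rw [h1]
    unfold Kf2 mB
    simp only [hF]
    split_ifs <;> ring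
  have e2 : ∀ e ∈ S, (Kf2 q n0 m r e + md (wz2 q m r) e) ^ 2 ≤
      2 * F e ^ 2 + 2 * mB r F e ^ 2 := by
    intro e _
    rw [e1]
    nlinarith [sq_nonneg (F e - mB r F e)]
  refine (Finset.sum_le_sum e2).trans ?_
  rw [Finset.sum_add_distrib, ← Finset.mul_sum, ← Finset.mul_sum, sum_mB]
  have h3 := h m hm S
  have h4 := h m hm (S.image (mirB r))
  simp only [hF]
  linarith

lemma kf_left {c : ℝ} {e : Bnd} (hq : 1 ≤ q) (h : kf q c 0 e ≠ 0) : e.1.1 ≤ -1 := by
  have h3 : rt e ∈ cone q := by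
    unfold kf at h
    split_ifs at h with h4
    · rcases h4 with h4 | h4
      · exact h4.1
      · exact h4.1
    · exact absurd rfl h
  have hq' : (1 : ℤ) ≤ q := by exact_mod_cast hq
  obtain ⟨⟨i, j⟩, d⟩ := e
  cases d
  · unfold rt at h3
    simp only [Bool.false_eq_true, if_false] at h3
    obtain ⟨h4, h5⟩ := h3
    simp only at h4 h5 ⊢
    have h6 : (-1 - (j - 1)) ≤ (q : ℤ) * (-1 - (j - 1)) := le_mul_of_one_le_left (by omega) hq'
    omega
  · unfold rt at h3
    simp only [if_true] at h3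
    obtain ⟨h4, h5⟩ := h3
    simp only at h4 h5 ⊢
    have h6 : (-1 - j) ≤ (q : ℤ) * (-1 - j) := le_mul_of_one_le_left (by omega) hq'
    omega

/-- energy of both tips -/
theorem kf2_energy (hq : 1 ≤ q) {n0 : ℕ} (hn : 8 ≤ n0) : ∃ C : ℝ, ∀ (r : ℕ) (m : ℝ), 1 ≤ r →
    (n0 : ℝ) ≤ m → m ≤ (r : ℝ) / 4 → ∀ S : Finset Bnd,
      ∑ e ∈ S, Kf2 q n0 m r e ^ 2 ≤ 2 * Real.log r / ang q + C := by
  obtain ⟨C, hC⟩ := kf_energy hq hn
  refine ⟨2 * C, fun r m hr hnm hm S => ?_⟩
  set F : Bnd → ℝ := Kf q (1 / ang q) 0 (clp n0 m) with hF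
  have h0 : ∀ e, F e ≠ 0 → e.1.1 ≤ -1 := by
    intro e he
    rw [hF] at he
    unfold Kf at he
    exact kf_left hq (left_ne_zero_of_mul he)
  have e1 : ∀ e, Kf2 q n0 m r e ^ 2 = F e ^ 2 + mB r F e ^ 2 := by
    intro e
    have h1 : F e * mB r F e = 0 := by
      by_contra hc
      have h2 := h0 e (left_ne_zero_of_mul hc)
      have h3 : F (mirB r e) ≠ 0 := by
        have h4 := right_ne_zero_of_mul hc
        unfold mB at h4
        split_ifs at h4
        · exact fun h5 => h4 (by rw [h5, neg_zero])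
        · exact h4
      have h4 := h0 _ h3
      unfold mirB at h4
      split_ifs at h4
      · simp only at h4
        omega
      · simp only at h4
        omega
    have h2 : Kf2 q n0 m r e = F e + mB r F e := rfl
    rw [h2]
    nlinarith
  rw [Finset.sum_congr rfl fun e _ => e1 e, Finset.sum_add_distrib, sum_mB]
  have h3 := hC r m hr hnm hm S
  have h4 := hC r m hr hnm hm (S.image (mirB r))
  have e2 : 2 * Real.log r / ang q = 1 / ang q * Real.log r + 1 / ang q * Real.log r := by ring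
  rw [e2]
  linarith

lemma wz2_nonneg (q : ℕ) (m : ℝ) (r : ℕ) (f : Z2) : 0 ≤ wz2 q m r f :=
  add_nonneg (wz_nonneg _ _ _) (wz_nonneg _ _ _)

lemma wz2_cases (q : ℕ) (m : ℝ) (r : ℕ) (f : Z2) :
    wz2 q m r f = wz q m f ∨ wz2 q m r f = wz q m (mir r f) := by
  unfold wz2
  rcases le_or_gt 0 f.1 with h | h
  · right
    rw [wz_right h, zero_add]
  · left
    rw [wz_right (f := mir r f) (by unfold mir; simp only; omega), add_zero]

lemma wz2_le_one (hq : 1 ≤ q) (m : ℝ) (r : ℕ) (f : Z2) : wz2 q m r f ≤ 1 := by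
  rcases wz2_cases q m r f with h | h
  · rw [h]
    exact wz_le_one hq m f
  · rw [h]
    exact wz_le_one hq m _

lemma wz2_up {r : ℕ} {f : Z2} (h : 0 ≤ f.2) : wz2 q m r f = 0 := by
  unfold wz2
  rw [wz_up h, wz_up (f := mir r f) h, add_zero]

/-- the gap between the two tips -/
lemma wz2_gap {r : ℕ} {f : Z2} (h1 : 0 ≤ f.1) (h2 : f.1 < r) : wz2 q m r f = 0 := by
  unfold wz2
  rw [wz_right h1, wz_right (f := mir r f) (by unfold mir; simp only; omega), add_zero]

/-- faces of the slit box in the row `j = -1` -/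
lemma wz2_row {R r : ℕ} {f : Z2} (hf : f ∈ SB R r) (h : f.2 = -1) : wz2 q m r f = 0 := by
  unfold SB at hf
  rw [Finset.mem_filter] at hf
  refine wz2_gap ?_ ?_
  · by_contra hc
    exact hf.2 ⟨h, Or.inl (not_le.1 hc)⟩
  · by_contra hc
    exact hf.2 ⟨h, Or.inr (not_lt.1 hc)⟩

end Vale.Agent.P159.T1.S.H757
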