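import Vale.Agent.P159.T1.S.H757.Layer
import Vale.Agent.P159.T1.S.H546.KeyDefs

/-!
# P159 stage 2, S.W: the layer function in the objects of `T1/S/Stmts.lean`
-/

namespace Vale.Agent.P159.T1.S.H757

open Vale.Agent.P159.T1.D Vale.Agent.P159.T1.S
open Vale.Agent.P159.T1.H565 (Kf)

variable {q r R : ℕ} {c1 : ℝ}

lemma mB_eq (r : ℕ) (B : Bnd → ℝ) (e : Bnd) : H565.mB r B e = D.mB r B e := rfl

/-- the layer field of `Stmts.lean` -/
lemma Bz_eq {Y : ℝ} (hY : Y ≠ 0) (q n0 r : ℕ) (c1 : ℝ) (e : Bnd) :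
    Y * Bz Y q n0 r c1 e = Kf2 q n0 (c1 * r) r e := by
  unfold Bz
  rw [mul_div_cancel₀ _ hY]
  rfl

lemma md_eq (w : Z2 → ℝ) (e : Bnd) : H226.mdr w e = md w e := rfl

/-- **the layer field is a gradient up to a square summable error** -/
theorem layer_sum (hq : 1 ≤ q) {n0 : ℕ} (hn : 1 ≤ n0) : ∃ C : ℝ, 0 < C ∧
    ∀ (Y c1 : ℝ) (r : ℕ), 0 < Y → (n0 : ℝ) ≤ c1 * r → ∀ S : Finset Bnd,
      ∑ e ∈ S, (Y * Bz Y q n0 r c1 e + H226.mdr (wz2 q (c1 * r) r) e) ^ 2 ≤ C := by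
  obtain ⟨C, hC, h⟩ := sum_tot2 hq hn
  refine ⟨C, hC, fun Y c1 r hY hnr S => ?_⟩
  have hn' : (1 : ℝ) ≤ n0 := by exact_mod_cast hn
  refine le_trans (le_of_eq ?_) (h (c1 * r) (hn'.trans hnr) r S)
  exact Finset.sum_congr rfl fun e _ => by rw [Bz_eq hY.ne', md_eq]

/-- energy of the layer field -/
theorem Bz_energy (hq : 1 ≤ q) {n0 : ℕ} (hn : 8 ≤ n0) : ∃ C : ℝ,
    ∀ (Y c1 : ℝ) (r : ℕ), 0 < Y → 1 ≤ r → (n0 : ℝ) ≤ c1 * r → c1 ≤ 1 / 4 → ∀ S : Finset Bnd,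
      ∑ e ∈ S, (Y * Bz Y q n0 r c1 e) ^ 2 ≤ 2 * Real.log r / ang q + C := by
  obtain ⟨C, h⟩ := kf2_energy hq hn
  refine ⟨C, fun Y c1 r hY hr hnr hc S => ?_⟩
  have hr0 : (0 : ℝ) ≤ r := Nat.cast_nonneg r
  refine le_trans (le_of_eq ?_) (h r (c1 * r) hr hnr (by nlinarith) S)
  exact Finset.sum_congr rfl fun e _ => by rw [Bz_eq hY.ne']

lemma strip_of {f : Z2} {m : ℝ} (hf : f ∈ cone q) (h1 : f.1 ≤ -1) (h : -(f.1 : ℝ) < 2 * m) :
    f ∈ strip q 1 (⌊2 * m⌋₊ + 2) := by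
  refine ⟨hf, by push_cast; omega, ?_⟩
  have h2 : ((-f.1).toNat : ℝ) ≤ 2 * m := by
    have h3 : (((-f.1).toNat : ℤ) : ℝ) = -(f.1 : ℝ) := by
      rw [Int.toNat_of_nonneg (by omega)]
      push_cast
      ring
    have h4 : ((-f.1).toNat : ℝ) = (((-f.1).toNat : ℤ) : ℝ) := by push_cast; rfl
    rw [h4, h3]
    exact h.le
  have h3 : (-f.1).toNat ≤ ⌊2 * m⌋₊ := Nat.le_floor h2
  push_cast
  omega

/-- the layer function vanishes on the explored set -/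
theorem wz2_expl (hq : 1 ≤ q) (hm : 0 < c1 * r) {N : Finset Z2}
    (hN : Expl (SB R r) (Tz q r c1 (SB R r)) N) {f : Z2} (hf : f ∈ N) :
    wz2 q (c1 * r) r f = 0 := by
  have hfT := hN.2.1 f hf
  have hfU := hN.1 hf
  by_contra hc
  apply hfT
  left
  have e2 : 2 * c1 * (r : ℝ) = 2 * (c1 * r) := by ring
  rcases wz2_cases q (c1 * r) r f with h | h
  · left
    rw [h] at hc
    obtain ⟨h1, h2 | h2⟩ := wz_supp hq hm hc
    · exact absurd (wz2_row (q := q) (m := c1 * r) hfU h2.1) (by rw [h]; exact hc)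
    · rw [e2]
      refine strip_of h2.1 ?_ h1
      by_contra h3
      exact hc (wz_right (by omega))
  · right
    rw [h] at hc
    obtain ⟨h1, h2 | h2⟩ := wz_supp hq hm hc
    · exact absurd (wz2_row (q := q) (m := c1 * r) hfU h2.1) (by rw [h]; exact hc)
    · rw [e2]
      refine strip_of h2.1 ?_ h1
      by_contra h3
      exact hc (wz_right (by omega))

/-- the form used in `flux_main` -/
theorem wz2_off (hq : 1 ≤ q) (hm : 0 < c1 * r) {N : Finset Z2}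
    (hN : Expl (SB R r) (Tz q r c1 (SB R r)) N) :
    ∀ f ∈ SB R r, f ∉ SB R r \ N → wz2 q (c1 * r) r f = 0 := fun f hf h =>
  wz2_expl hq hm hN (by
    by_contra hc
    exact h (Finset.mem_sdiff.2 ⟨hf, hc⟩))

/-- on the slit rows near the tips the layer function is `1` -/
theorem wz2_slit {f : Z2} (hm : 0 < c1 * r) (h : f.2 = -1)
    (h1 : (f.1 ≤ -1 ∧ -(f.1 : ℝ) ≤ c1 * r) ∨ ((r : ℤ) ≤ f.1 ∧ (f.1 : ℝ) - r + 1 ≤ c1 * r)) :
    wz2 q (c1 * r) r f = 1 := by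
  rcases h1 with ⟨h1, h2⟩ | ⟨h1, h2⟩
  · unfold wz2
    rw [wz_slit_one hm h h1 h2, wz_right (f := mir r f) (by unfold mir; simp only; omega),
      add_zero]
  · unfold wz2
    rw [wz_right (f := f) (by omega), wz_slit_one hm (f := mir r f) h
      (by unfold mir; simp only; omega) (by unfold mir; push_cast; linarith), zero_add]

/-- faces off the slit box within distance `m ≤ r` of a tip are in the slit rows -/
theorem off_near (hr : c1 * r ≤ r) (hR : r ≤ R) {f : Z2} (hf : f ∉ SB R r)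
    (h : (|(f.1 : ℝ)| < c1 * r ∧ |(f.2 : ℝ)| < c1 * r) ∨
      (|(((mir r f).1 : ℤ) : ℝ)| < c1 * r ∧ |(f.2 : ℝ)| < c1 * r)) :
    f.2 = -1 ∧ ((f.1 ≤ -1 ∧ -(f.1 : ℝ) ≤ c1 * r) ∨
      ((r : ℤ) ≤ f.1 ∧ (f.1 : ℝ) - r + 1 ≤ c1 * r)) := by
  have hR' : (r : ℝ) ≤ R := by exact_mod_cast hR
  have hcast : ∀ {z : ℤ}, |(z : ℝ)| < c1 * r → |z| < (r : ℤ) := by
    intro z hz
    have h1 : |(z : ℝ)| < r := hz.trans_le hr
    have h2 : ((|z| : ℤ) : ℝ) < ((r : ℤ) : ℝ) := by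
      push_cast
      exact h1
    exact_mod_cast h2
  unfold SB at hf
  rw [Finset.mem_filter, Finset.mem_product, Finset.mem_Ico, Finset.mem_Ico] at hf
  rcases h with ⟨h1, h2⟩ | ⟨h1, h2⟩
  · have a1 := abs_lt.1 (hcast h1)
    have a2 := abs_lt.1 (hcast h2)
    have h3 : f.2 = -1 ∧ (f.1 < 0 ∨ (r : ℤ) ≤ f.1) := by
      by_contra hc
      exact hf ⟨⟨⟨by omega, by omega⟩, by omega, by omega⟩, hc⟩
    refine ⟨h3.1, Or.inl ⟨by omega, ?_⟩⟩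
    have := neg_abs_le (f.1 : ℝ)
    linarith
  · have a1 := abs_lt.1 (hcast h1)
    have a2 := abs_lt.1 (hcast h2)
    unfold mir at a1
    simp only at a1
    have h3 : f.2 = -1 ∧ (f.1 < 0 ∨ (r : ℤ) ≤ f.1) := by
      by_contra hc
      exact hf ⟨⟨⟨by omega, by omega⟩, by omega, by omega⟩, hc⟩
    refine ⟨h3.1, Or.inr ⟨by omega, ?_⟩⟩
    have h4 := neg_abs_le ((((mir r f).1 : ℤ) : ℝ))
    unfold mir at h4 h1
    push_cast at h4 h1
    linarith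

end Vale.Agent.P159.T1.S.H757
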