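import Vale.Agent.P159.T1.S.H757.WA
import Vale.Agent.P159.T1.H565.UpDefs

/-!
# P159 stage 2, S.W: the layer field below the lower lip

`wz` is `1` on the slit row (up to distance `m = c₁ r` from the tip) and falls to `0` across the
cone, linearly in the angle. Its gradient is, up to a square summable error, the negative of the
field `Kf q (1 / ang q) 0 (clp n0 m)` (stream function `log |z|` inside the cone).
-/

namespace Vale.Agent.P159.T1.S.H757

open Vale.Agent.P159.T1.D Vale.Agent.P159.T1.H565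

/-- cut-off at distance `m` -/
noncomputable def xi (m x : ℝ) : ℝ := max 0 (min 1 (2 - x / m))

/-- angular profile -/
noncomputable def om (q : ℕ) (K X : ℝ) : ℝ := max 0 (1 - Real.arctan (K / X) / ang q)

/-- the layer function -/
noncomputable def wz (q : ℕ) (m : ℝ) (f : Z2) : ℝ :=
  if f.2 = -1 ∧ f.1 ≤ -1 then xi m (-(f.1 : ℝ)) else
    if f.2 ≤ -2 ∧ f.1 ≤ -2 then xi m (-(f.1 : ℝ)) * om q (-(f.2 : ℝ)) (-(f.1 : ℝ) - 1) else 0

/-- the error field -/
noncomputable def tot (q n0 : ℕ) (m : ℝ) (e : Bnd) : ℝ :=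
  Kf q (1 / ang q) 0 (clp n0 m) e + dr (wz q m) e

/-! ### profiles -/

lemma xi_nonneg (m x : ℝ) : 0 ≤ xi m x := le_max_left _ _

lemma xi_le_one (m x : ℝ) : xi m x ≤ 1 := max_le zero_le_one (min_le_left _ _)

lemma xi_one {m x : ℝ} (hm : 0 < m) (h : x ≤ m) : xi m x = 1 := by
  unfold xi
  have h1 : x / m ≤ 1 := by rwa [div_le_one hm]
  rw [min_eq_left (by linarith), max_eq_right zero_le_one]

lemma xi_zero {m x : ℝ} (hm : 0 < m) (h : 2 * m ≤ x) : xi m x = 0 := by
  unfold xi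
  have h1 : 2 ≤ x / m := by rwa [le_div_iff₀ hm]
  exact max_eq_left ((min_le_right _ _).trans (by linarith))

lemma xi_diff {m x : ℝ} (hm : 0 < m) (hx : 0 < x) : |xi m (x + 1) - xi m x| ≤ 2 / x := by
  rcases le_total (2 * m) x with h | h
  · rw [xi_zero hm h, xi_zero hm (by linarith), sub_zero, abs_zero]
    positivity
  · have h1 : |xi m (x + 1) - xi m x| ≤ 1 / m := by
      unfold xi
      refine (abs_max_sub_max_le_max _ _ _ _).trans ?_
      rw [sub_self, abs_zero]
      refine max_le (by positivity) ?_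
      refine (abs_min_sub_min_le_max _ _ _ _).trans ?_
      rw [sub_self, abs_zero]
      refine max_le (by positivity) (le_of_eq ?_)
      have : 2 - (x + 1) / m - (2 - x / m) = -(1 / m) := by
        field_simp
        ring
      rw [this, abs_neg, abs_of_pos (by positivity)]
    refine h1.trans ?_
    rw [div_le_div_iff₀ hm hx]
    linarith

variable {q : ℕ}

lemma ang_pos' (hq : 1 ≤ q) : 0 < ang q := by
  unfold ang
  have h : (0 : ℝ) < 1 / q := by positivity
  have := Real.arctan_strictMono h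
  rwa [Real.arctan_zero] at this

lemma ang_le_one (hq : 1 ≤ q) : ang q ≤ 1 := by
  unfold ang
  have h : (1 : ℝ) / q ≤ 1 := by
    rw [div_le_one (by positivity)]
    exact_mod_cast hq
  exact (arctan_le_self (by positivity)).trans h

lemma om_nonneg (q : ℕ) (K X : ℝ) : 0 ≤ om q K X := le_max_left _ _

lemma om_le_one (hq : 1 ≤ q) {K X : ℝ} (hK : 0 ≤ K) (hX : 0 ≤ X) : om q K X ≤ 1 := by
  unfold om
  refine max_le zero_le_one ?_
  have h1 : 0 ≤ Real.arctan (K / X) := by
    rw [← Real.arctan_zero]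
    exact Real.arctan_mono (by positivity)
  have h2 := ang_pos' hq
  have h3 : 0 ≤ Real.arctan (K / X) / ang q := by positivity
  linarith

lemma om_diff (hq : 1 ≤ q) (K X K' X' : ℝ) :
    |om q K X - om q K' X'| ≤ 1 / ang q * |Real.arctan (K' / X') - Real.arctan (K / X)| := by
  have h2 := ang_pos' hq
  unfold om
  refine (abs_max_sub_max_le_max _ _ _ _).trans ?_
  rw [sub_self, abs_zero]
  refine max_le (by positivity) (le_of_eq ?_)
  have : 1 - Real.arctan (K / X) / ang q - (1 - Real.arctan (K' / X') / ang q) =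
      1 / ang q * (Real.arctan (K' / X') - Real.arctan (K / X)) := by
    ring
  rw [this, abs_mul, abs_of_pos (by positivity)]

lemma om_one (hq : 1 ≤ q) {K X : ℝ} (hX : 0 < X) (h : (q : ℝ) * K ≤ X) :
    om q K X = 1 - Real.arctan (K / X) / ang q := by
  unfold om
  refine max_eq_right ?_
  have h2 := ang_pos' hq
  have hq0 : (0 : ℝ) < q := by exact_mod_cast hq
  have h3 : Real.arctan (K / X) ≤ ang q := by
    unfold ang
    refine Real.arctan_mono ?_
    rw [div_le_div_iff₀ hX hq0]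
    linarith
  have h4 : Real.arctan (K / X) / ang q ≤ 1 := by rwa [div_le_one h2]
  linarith

lemma om_pos (hq : 1 ≤ q) {K X : ℝ} (hX : 0 < X) (h : om q K X ≠ 0) : (q : ℝ) * K < X := by
  by_contra hc
  push Not at hc
  apply h
  unfold om
  refine max_eq_left ?_
  have h2 := ang_pos' hq
  have hq0 : (0 : ℝ) < q := by exact_mod_cast hq
  have h3 : ang q ≤ Real.arctan (K / X) := by
    unfold ang
    refine Real.arctan_mono ?_
    rw [div_le_div_iff₀ hq0 hX]
    linarith
  have h4 : 1 ≤ Real.arctan (K / X) / ang q := by rwa [le_div_iff₀ h2, one_mul]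
  linarith

/-! ### bonds -/

/-- the bond with coordinates `X`, `K` -/
def bo (X K : ℕ) (d : Bool) : Bnd := ((-((X : ℤ) + 1), -(K : ℤ)), d)

lemma tau_eq (P : Z2) : tau P = 1 / 2 * Real.log ((P.1 : ℝ) ^ 2 + (P.2 : ℝ) ^ 2) := by
  unfold tau
  rw [Real.log_sqrt (by positivity)]
  ring

lemma clp_lip (a A x y : ℝ) : |clp a A x - clp a A y| ≤ |x - y| := by
  unfold clp
  refine (abs_max_sub_max_le_max _ _ _ _).trans ?_
  rw [sub_self, abs_zero]
  refine max_le (abs_nonneg _) ?_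
  refine (abs_min_sub_min_le_max _ _ _ _).trans ?_
  rw [sub_self, abs_zero]
  exact max_le le_rfl (abs_nonneg _)

lemma kf_abs (hq : 1 ≤ q) (e : Bnd) : |kf q (1 / ang q) 0 e| ≤ 1 / ang q := by
  have h2 := ang_pos' hq
  unfold kf
  split_ifs
  · rw [abs_of_pos (by positivity)]
  · rw [abs_zero]
    positivity

lemma gs_hor (Γ : ℝ → ℝ) (X K : ℕ) : gs (fun P => Γ (tau P)) (bo X K false) =
    Γ (1 / 2 * Real.log ((X : ℝ) ^ 2 + (K : ℝ) ^ 2)) -
      Γ (1 / 2 * Real.log (((X : ℝ) + 1) ^ 2 + (K : ℝ) ^ 2)) := by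
  unfold gs bo bt bs
  simp only [tau_eq, Bool.false_eq_true, if_false]
  push_cast
  congr 4 <;> ring

lemma gs_ver (Γ : ℝ → ℝ) (X K : ℕ) : gs (fun P => Γ (tau P)) (bo X K true) =
    Γ (1 / 2 * Real.log (((X : ℝ) + 1) ^ 2 + ((K : ℝ) - 1) ^ 2)) -
      Γ (1 / 2 * Real.log (((X : ℝ) + 1) ^ 2 + (K : ℝ) ^ 2)) := by
  unfold gs bo bt bs
  simp only [tau_eq, if_true]
  push_cast
  congr 4 <;> ring

lemma gs_crude (a A : ℝ) {X K : ℕ} (hX : 1 ≤ X) (hK : 1 ≤ K) (d : Bool) :
    |gs (fun P => clp a A (tau P)) (bo X K d)| ≤ 3 / 2 / X := by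
  have hX' : (1 : ℝ) ≤ X := by exact_mod_cast hX
  have hK' : (1 : ℝ) ≤ K := by exact_mod_cast hK
  cases d
  · rw [gs_hor]
    refine (clp_lip _ _ _ _).trans (le_trans (le_of_eq ?_) (hor_log' (X := X) (K := K) hX'))
    rw [abs_sub_comm]
    congr 1
    ring
  · rw [gs_ver]
    refine (clp_lip _ _ _ _).trans (le_trans (le_of_eq ?_) (ver_log' (X := X) (K := K) hX' hK'))
    rw [abs_sub_comm]
    congr 1
    ring

lemma kf_crude (hq : 1 ≤ q) (a A : ℝ) {X K : ℕ} (hX : 1 ≤ X) (hK : 1 ≤ K) (d : Bool) :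
    |Kf q (1 / ang q) 0 (clp a A) (bo X K d)| ≤ 3 / 2 / (ang q * X) := by
  have h2 := ang_pos' hq
  have hX' : (0 : ℝ) < X := by exact_mod_cast hX
  unfold Kf
  rw [abs_mul]
  calc _ ≤ 1 / ang q * (3 / 2 / X) :=
        mul_le_mul (kf_abs hq _) (gs_crude a A hX hK d) (abs_nonneg _) (by positivity)
    _ = 3 / 2 / (ang q * X) := by
        field_simp

/-! the values of the layer function -/

lemma wz_slit (m : ℝ) {x : ℕ} (hx : 1 ≤ x) : wz q m (-(x : ℤ), -1) = xi m x := by
  unfold wz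
  rw [if_pos ⟨rfl, by omega⟩]
  push_cast
  rw [neg_neg]

lemma wz_cone (m : ℝ) {x K : ℕ} (hx : 2 ≤ x) (hK : 2 ≤ K) :
    wz q m (-(x : ℤ), -(K : ℤ)) = xi m x * om q K ((x : ℝ) - 1) := by
  unfold wz
  rw [if_neg (by
    rintro ⟨h, _⟩
    simp only at h
    omega), if_pos (by
    constructor
    · simp only
      omega
    · simp only
      omega)]
  push_cast
  rw [neg_neg, neg_neg]

lemma lf_hor (X K : ℕ) : lf (bo X K false) = (-((X + 1 : ℕ) : ℤ), -(K : ℤ)) := by
  unfold lf bo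
  simp

lemma rt_hor (X K : ℕ) : rt (bo X K false) = (-((X + 1 : ℕ) : ℤ), -((K + 1 : ℕ) : ℤ)) := by
  unfold rt bo
  simp only [Bool.false_eq_true, if_false]
  push_cast
  ext
  · simp
  · simp
    ring

lemma lf_ver (X K : ℕ) : lf (bo X K true) = (-((X + 2 : ℕ) : ℤ), -(K : ℤ)) := by
  unfold lf bo
  simp only [if_true]
  push_cast
  ext
  · simp
    ring
  · simp

lemma rt_ver (X K : ℕ) : rt (bo X K true) = (-((X + 1 : ℕ) : ℤ), -(K : ℤ)) := by
  unfold rt bo
  simp

lemma wz_K (m : ℝ) {x K : ℕ} (hx : 2 ≤ x) (hK : 1 ≤ K) :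
    wz q m (-(x : ℤ), -(K : ℤ)) = xi m x * (if K = 1 then 1 else om q K ((x : ℝ) - 1)) := by
  rcases Nat.lt_or_ge 1 K with h | h
  · rw [wz_cone m hx h, if_neg (by omega)]
  · obtain rfl : K = 1 := by omega
    rw [if_pos rfl, mul_one]
    exact wz_slit m (by omega)

lemma dr_hor (m : ℝ) {X K : ℕ} (hX : 1 ≤ X) (hK : 1 ≤ K) : dr (wz q m) (bo X K false) =
    xi m ((X : ℝ) + 1) * ((if K = 1 then 1 else om q K X) - om q ((K : ℝ) + 1) X) := by
  unfold dr
  rw [lf_hor, rt_hor, wz_K m (by omega) hK, wz_K m (by omega) (by omega),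
    if_neg (show ¬ K + 1 = 1 by omega)]
  push_cast
  rw [show (X : ℝ) + 1 - 1 = X by ring]
  ring

lemma dr_ver (m : ℝ) {X K : ℕ} (hX : 1 ≤ X) (hK : 1 ≤ K) : dr (wz q m) (bo X K true) =
    xi m ((X : ℝ) + 1 + 1) * (if K = 1 then 1 else om q K ((X : ℝ) + 1)) -
      xi m ((X : ℝ) + 1) * (if K = 1 then 1 else om q K X) := by
  unfold dr
  rw [lf_ver, rt_ver, wz_K m (by omega) hK, wz_K m (by omega) hK]
  push_cast
  rw [show (X : ℝ) + 2 - 1 = X + 1 by ring, show (X : ℝ) + 1 - 1 = X by ring,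
    show (X : ℝ) + 2 = X + 1 + 1 by ring]

lemma dr_crude (hq : 1 ≤ q) {m : ℝ} (hm : 0 < m) {X K : ℕ} (hX : 1 ≤ X) (hK : 1 ≤ K) (d : Bool) :
    |dr (wz q m) (bo X K d)| ≤ 3 / (ang q * X) := by
  have h2 := ang_pos' hq
  have h1 := ang_le_one hq
  have hX' : (1 : ℝ) ≤ X := by exact_mod_cast hX
  have hX0 : (0 : ℝ) < X := by linarith
  have hK0 : (0 : ℝ) ≤ K := Nat.cast_nonneg K
  have hd1 : 1 / (X : ℝ) ≤ 1 / (ang q * X) := by
    apply one_div_le_one_div_of_le (by positivity)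
    nlinarith
  have e3 : 3 / (ang q * X) = 3 * (1 / (ang q * X)) := by ring
  cases d
  · rw [dr_hor m hX hK, abs_mul, abs_of_nonneg (xi_nonneg _ _)]
    have h3 : |(if K = 1 then 1 else om q K X) - om q ((K : ℝ) + 1) X| ≤
        2 * (1 / (ang q * X)) := by
      split_ifs with h
      · subst h
        have h4 : 1 - om q (((1 : ℕ) : ℝ) + 1) X ≤ 2 * (1 / (ang q * X)) := by
          have h5 : 1 - Real.arctan ((((1 : ℕ) : ℝ) + 1) / X) / ang q ≤
              om q (((1 : ℕ) : ℝ) + 1) X := le_max_right _ _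
          have h6 := arctan_le_self (a := (((1 : ℕ) : ℝ) + 1) / X) (by positivity)
          have h7 : Real.arctan ((((1 : ℕ) : ℝ) + 1) / X) / ang q ≤
              ((((1 : ℕ) : ℝ) + 1) / X) / ang q := by
            gcongr
          have h8 : ((((1 : ℕ) : ℝ) + 1) / X) / ang q = 2 * (1 / (ang q * X)) := by
            push_cast
            field_simp
            ring
          linarith
        rw [abs_of_nonneg]
        · exact h4
        · have := om_le_one hq (K := ((1 : ℕ) : ℝ) + 1) (X := X) (by positivity) hX0.le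
          linarith
      · refine (om_diff hq _ _ _ _).trans ?_
        have h4 := hor_ang' (X := X) (K := K) hX' hK0
        calc 1 / ang q * |Real.arctan (((K : ℝ) + 1) / X) - Real.arctan ((K : ℝ) / X)| ≤
              1 / ang q * (1 / X) := mul_le_mul_of_nonneg_left h4 (by positivity)
          _ = 1 * (1 / (ang q * X)) := by field_simp
          _ ≤ 2 * (1 / (ang q * X)) := by
              have : 0 < 1 / (ang q * X) := by positivity
              linarith
    have h4 := xi_le_one m ((X : ℝ) + 1)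
    have h5 := xi_nonneg m ((X : ℝ) + 1)
    have h6 : 0 < 1 / (ang q * X) := by positivity
    rw [e3]
    nlinarith [abs_nonneg ((if K = 1 then 1 else om q K X) - om q ((K : ℝ) + 1) X)]
  · rw [dr_ver m hX hK]
    set A : ℝ := if K = 1 then 1 else om q K ((X : ℝ) + 1) with hA
    set B : ℝ := if K = 1 then 1 else om q K X with hB
    have hA0 : 0 ≤ A := by
      rw [hA]
      split_ifs
      · exact zero_le_one
      · exact om_nonneg _ _ _
    have hA1 : A ≤ 1 := by
      rw [hA]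
      split_ifs
      · exact le_rfl
      · exact om_le_one hq hK0 (by linarith)
    have hAB : |A - B| ≤ 1 / (ang q * X) := by
      rw [hA, hB]
      split_ifs
      · rw [sub_self, abs_zero]
        positivity
      · refine (om_diff hq _ _ _ _).trans ?_
        have h4 := ver_ang' (X := X) (K := K) hX' hK0
        rw [abs_sub_comm] at h4
        calc 1 / ang q * |Real.arctan ((K : ℝ) / X) - Real.arctan ((K : ℝ) / (X + 1))| ≤
              1 / ang q * (1 / X) := mul_le_mul_of_nonneg_left h4 (by positivity)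
          _ = 1 / (ang q * X) := by field_simp
    have h3 : |xi m ((X : ℝ) + 1 + 1) - xi m ((X : ℝ) + 1)| ≤ 2 * (1 / (ang q * X)) := by
      refine (xi_diff hm (by positivity)).trans ?_
      have : 2 / ((X : ℝ) + 1) ≤ 2 / X := div_le_div_of_nonneg_left (by norm_num) hX0 (by linarith)
      have e : 2 / (X : ℝ) = 2 * (1 / X) := by ring
      linarith
    have h5 := xi_nonneg m ((X : ℝ) + 1)
    have h6 := xi_le_one m ((X : ℝ) + 1)
    have e4 : xi m ((X : ℝ) + 1 + 1) * A - xi m ((X : ℝ) + 1) * B =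
        (xi m ((X : ℝ) + 1 + 1) - xi m ((X : ℝ) + 1)) * A + xi m ((X : ℝ) + 1) * (A - B) := by
      ring
    rw [e4]
    refine (abs_add_le _ _).trans ?_
    rw [abs_mul, abs_mul, abs_of_nonneg hA0, abs_of_nonneg h5, e3]
    have h7 : |xi m ((X : ℝ) + 1 + 1) - xi m ((X : ℝ) + 1)| * A ≤ 2 * (1 / (ang q * X)) * 1 :=
      mul_le_mul h3 hA1 hA0 (by positivity)
    have h8 : xi m ((X : ℝ) + 1) * |A - B| ≤ 1 * (1 / (ang q * X)) :=
      mul_le_mul h6 hAB (abs_nonneg _) zero_le_one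
    linarith

lemma tot_crude (hq : 1 ≤ q) {m : ℝ} (hm : 0 < m) (n0 : ℕ) {X K : ℕ} (hX : 1 ≤ X) (hK : 1 ≤ K)
    (d : Bool) : |tot q n0 m (bo X K d)| ≤ 5 / (ang q * X) := by
  have h2 := ang_pos' hq
  have hX0 : (0 : ℝ) < X := by exact_mod_cast hX
  unfold tot
  refine (abs_add_le _ _).trans ((add_le_add (kf_crude hq n0 m hX hK d)
    (dr_crude hq hm hX hK d)).trans ?_)
  have : 0 < 1 / (ang q * X) := by positivity
  have e1 : 3 / 2 / (ang q * X) + 3 / (ang q * X) = 9 / 2 * (1 / (ang q * X)) := by ring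
  have e2 : 5 / (ang q * X) = 5 * (1 / (ang q * X)) := by ring
  rw [e1, e2]
  linarith

/-! ### where the error field does not vanish -/

lemma cone_rt (q : ℕ) (X K : ℕ) (d : Bool) (h : rt (bo X K d) ∈ cone q) : q * K ≤ X + 1 + q := by
  cases d
  · rw [rt_hor] at h
    obtain ⟨_, h2⟩ := h
    simp only at h2
    push_cast at h2
    have h3 : (q : ℤ) * K ≤ X + 1 := by nlinarith
    have h4 : (0 : ℤ) ≤ q := by positivity
    zify
    linarith
  · rw [rt_ver] at h
    obtain ⟨_, h2⟩ := h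
    simp only at h2
    push_cast at h2
    zify
    nlinarith

lemma kf_rel {q X K : ℕ} {d : Bool} (h : kf q (1 / ang q) 0 (bo X K d) ≠ 0) :
    q * K ≤ X + 1 + q := by
  unfold kf at h
  split_ifs at h with h1
  · rcases h1 with h1 | h1
    · exact cone_rt q X K d h1.1
    · exact cone_rt q X K d h1.1
  · exact absurd rfl h

lemma clp_top {a A x : ℝ} (h : Real.log A ≤ x) : clp a A x = max (Real.log a) (Real.log A) := by
  unfold clp
  rw [min_eq_right h]

lemma half_log_le {m s : ℝ} {X : ℕ} (hm : 0 < m) (h : m ≤ X) (hs : (X : ℝ) ^ 2 ≤ s) :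
    Real.log m ≤ 1 / 2 * Real.log s := by
  have h1 : m ^ 2 ≤ s := (pow_le_pow_left₀ hm.le h 2).trans hs
  have h2 := Real.log_le_log (by positivity) h1
  rw [Real.log_pow] at h2
  push_cast at h2
  linarith

lemma gs_rel {a m : ℝ} (hm : 1 ≤ m) {X K : ℕ} {d : Bool}
    (h : gs (fun P => clp a m (tau P)) (bo X K d) ≠ 0) : (X : ℝ) + 1 ≤ 2 * m := by
  by_contra hc
  push Not at hc
  apply h
  have hmX : m ≤ X := by linarith
  have hX0 : (0 : ℝ) ≤ X := Nat.cast_nonneg X
  cases d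
  · rw [gs_hor, clp_top (half_log_le (by linarith) hmX (by nlinarith [sq_nonneg (K : ℝ)])),
      clp_top (half_log_le (by linarith) hmX (by nlinarith [sq_nonneg (K : ℝ)])), sub_self]
  · rw [gs_ver, clp_top (half_log_le (by linarith) hmX (by nlinarith [sq_nonneg ((K : ℝ) - 1)])),
      clp_top (half_log_le (by linarith) hmX (by nlinarith [sq_nonneg (K : ℝ)])), sub_self]

lemma wz_rel (hq : 1 ≤ q) {m : ℝ} (hm : 0 < m) {x K : ℕ} (hx : 2 ≤ x) (hK : 1 ≤ K)
    (h : wz q m (-(x : ℤ), -(K : ℤ)) ≠ 0) : (K = 1 ∨ q * K < x - 1) ∧ (x : ℝ) < 2 * m := by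
  rw [wz_K m hx hK] at h
  constructor
  · by_cases h1 : K = 1
    · exact Or.inl h1
    · rw [if_neg h1] at h
      right
      have h2 := om_pos hq (by
        have : (2 : ℝ) ≤ x := by exact_mod_cast hx
        linarith) (right_ne_zero_of_mul h)
      have h3 : (q : ℝ) * K + 1 < x := by linarith
      have h4 : q * K + 1 < x := by exact_mod_cast h3
      omega
  · by_contra hc
    push Not at hc
    exact left_ne_zero_of_mul h (xi_zero hm hc)

lemma dr_rel (hq : 1 ≤ q) {m : ℝ} (hm : 0 < m) {X K : ℕ} (hX : 1 ≤ X) (hK : 1 ≤ K) {d : Bool}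
    (h : dr (wz q m) (bo X K d) ≠ 0) : q * K ≤ X + 1 + q ∧ (X : ℝ) + 1 ≤ 2 * m := by
  have h1 : wz q m (lf (bo X K d)) ≠ 0 ∨ wz q m (rt (bo X K d)) ≠ 0 := by
    by_contra hc
    push Not at hc
    apply h
    unfold dr
    rw [hc.1, hc.2, sub_zero]
  cases d
  · rw [lf_hor, rt_hor] at h1
    rcases h1 with h1 | h1
    · obtain ⟨h2, h3⟩ := wz_rel hq hm (by omega) hK h1
      push_cast at h3
      refine ⟨?_, h3.le⟩
      rcases h2 with rfl | h2
      · omega
      · omega
    · obtain ⟨h2, h3⟩ := wz_rel hq hm (by omega) (by omega) h1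
      push_cast at h3
      refine ⟨?_, h3.le⟩
      rcases h2 with h2 | h2
      · omega
      · have : q * K ≤ q * (K + 1) := Nat.mul_le_mul_left _ (Nat.le_succ K)
        omega
  · rw [lf_ver, rt_ver] at h1
    rcases h1 with h1 | h1
    · obtain ⟨h2, h3⟩ := wz_rel hq hm (by omega) hK h1
      push_cast at h3
      refine ⟨?_, by linarith⟩
      rcases h2 with rfl | h2
      · omega
      · omega
    · obtain ⟨h2, h3⟩ := wz_rel hq hm (by omega) hK h1
      push_cast at h3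
      refine ⟨?_, h3.le⟩
      rcases h2 with rfl | h2
      · omega
      · omega

lemma tot_rel (hq : 1 ≤ q) {m : ℝ} (hm : 1 ≤ m) {n0 X K : ℕ} (hX : 1 ≤ X) (hK : 1 ≤ K) {d : Bool}
    (h : tot q n0 m (bo X K d) ≠ 0) : q * K ≤ X + 1 + q ∧ (X : ℝ) + 1 ≤ 2 * m := by
  by_cases h1 : dr (wz q m) (bo X K d) = 0
  · unfold tot at h
    rw [h1, add_zero] at h
    unfold Kf at h
    exact ⟨kf_rel (left_ne_zero_of_mul h), gs_rel hm (right_ne_zero_of_mul h)⟩
  · exact dr_rel hq (by linarith) hX hK h1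

/-! ### the main zone -/

lemma clp_id {a A x : ℝ} (h1 : Real.log a ≤ x) (h2 : x ≤ Real.log A) : clp a A x = x := by
  unfold clp
  rw [min_eq_left h2, max_eq_right h1]

lemma kf_one {X K : ℕ} (hK : 2 ≤ K) (h : q * (K + 1) ≤ X) (d : Bool) (c₂ c₁ : ℝ) :
    kf q c₂ c₁ (bo X K d) = c₂ := by
  have h1 : q * K ≤ X := (Nat.mul_le_mul_left _ (Nat.le_succ K)).trans h
  have h1' : (q : ℤ) * K ≤ X := by exact_mod_cast h1
  have h0 : (0 : ℤ) ≤ q := by positivity
  unfold kf
  refine if_pos (Or.inl ?_)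
  cases d
  · rw [rt_hor, lf_hor]
    refine ⟨⟨?_, ?_⟩, ?_, ?_⟩
    · simp only
      omega
    · simp only
      push_cast
      nlinarith
    · simp only
      omega
    · simp only
      push_cast
      nlinarith
  · rw [rt_ver, lf_ver]
    refine ⟨⟨?_, ?_⟩, ?_, ?_⟩
    · simp only
      omega
    · simp only
      push_cast
      nlinarith
    · simp only
      omega
    · simp only
      push_cast
      nlinarith

lemma tot_main (hq : 1 ≤ q) {m : ℝ} {n0 X K : ℕ} (hn : 1 ≤ n0) (hK : 2 ≤ K)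
    (h : q * (K + 1) ≤ X) (h0 : n0 ≤ X) (hm : 4 * (X : ℝ) ≤ m) (d : Bool) :
    |tot q n0 m (bo X K d)| ≤ 12 / (ang q * X ^ 2) := by
  have h2 := ang_pos' hq
  have hKX : K + 1 ≤ X := le_trans (Nat.le_mul_of_pos_left _ hq) h
  have hX : 1 ≤ X := by omega
  have hX' : (1 : ℝ) ≤ X := by exact_mod_cast hX
  have hX0 : (0 : ℝ) < X := by linarith
  have hK' : (1 : ℝ) ≤ K := by exact_mod_cast (by omega : 1 ≤ K)
  have hKX' : (K : ℝ) + 1 ≤ X := by exact_mod_cast hKX
  have hn' : (1 : ℝ) ≤ n0 := by exact_mod_cast hn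
  have h0' : (n0 : ℝ) ≤ X := by exact_mod_cast h0
  have hm0 : 0 < m := by linarith
  have hlow : ∀ s : ℝ, (X : ℝ) ^ 2 ≤ s → Real.log n0 ≤ 1 / 2 * Real.log s := fun s hs =>
    half_log_le (by linarith) h0' hs
  have hup : ∀ s : ℝ, 0 < s → s ≤ (4 * (X : ℝ)) ^ 2 → 1 / 2 * Real.log s ≤ Real.log m := by
    intro s hs hs2
    have h3 : Real.log s ≤ Real.log ((4 * (X : ℝ)) ^ 2) := Real.log_le_log hs hs2
    rw [Real.log_pow] at h3
    have h4 : Real.log (4 * (X : ℝ)) ≤ Real.log m := Real.log_le_log (by positivity) hm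
    push_cast at h3
    linarith
  have hqK : (q : ℝ) * ((K : ℝ) + 1) ≤ X := by exact_mod_cast h
  have hq0 : (0 : ℝ) ≤ q := Nat.cast_nonneg q
  have e12 : 12 / (ang q * (X : ℝ) ^ 2) = 1 / ang q * (12 * (1 / (X : ℝ) ^ 2)) := by
    field_simp
  have hp : 0 < 1 / (X : ℝ) ^ 2 := by positivity
  unfold tot Kf
  rw [kf_one hK h, e12]
  cases d
  · rw [gs_hor, dr_hor m hX (by omega), if_neg (by omega), xi_one hm0 (by linarith),
      om_one hq hX0 (by nlinarith), om_one hq hX0 hqK,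
      clp_id (hlow _ (by nlinarith)) (hup _ (by positivity) (by nlinarith)),
      clp_id (hlow _ (by nlinarith)) (hup _ (by positivity) (by nlinarith))]
    have e1 : 1 / ang q * (1 / 2 * Real.log ((X : ℝ) ^ 2 + (K : ℝ) ^ 2) -
        1 / 2 * Real.log (((X : ℝ) + 1) ^ 2 + (K : ℝ) ^ 2)) +
        1 * (1 - Real.arctan ((K : ℝ) / X) / ang q -
          (1 - Real.arctan (((K : ℝ) + 1) / X) / ang q)) =
        1 / ang q * (((Real.arctan (((K : ℝ) + 1) / X) - Real.arctan ((K : ℝ) / X)) -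
          (X : ℝ) / ((X : ℝ) ^ 2 + (K : ℝ) ^ 2)) -
          (1 / 2 * (Real.log (((X : ℝ) + 1) ^ 2 + (K : ℝ) ^ 2) -
            Real.log ((X : ℝ) ^ 2 + (K : ℝ) ^ 2)) - (X : ℝ) / ((X : ℝ) ^ 2 + (K : ℝ) ^ 2))) := by
      ring
    rw [e1, abs_mul, abs_of_pos (show 0 < 1 / ang q by positivity)]
    refine mul_le_mul_of_nonneg_left ((abs_sub _ _).trans ?_) (by positivity)
    have h3 := hor_ang (X := X) (K := K) hX' hK'
    have h4 := hor_log (X := X) (K := K) hX' hK'
    have e3 : 2 / (X : ℝ) ^ 2 = 2 * (1 / (X : ℝ) ^ 2) := by ring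
    have e4 : 5 / (X : ℝ) ^ 2 = 5 * (1 / (X : ℝ) ^ 2) := by ring
    rw [e3] at h3
    rw [e4] at h4
    linarith
  · rw [gs_ver, dr_ver m hX (by omega), if_neg (by omega), if_neg (by omega),
      xi_one hm0 (by linarith), xi_one hm0 (by linarith),
      om_one hq (by linarith) (by nlinarith), om_one hq hX0 (by nlinarith),
      clp_id (hlow _ (by nlinarith [sq_nonneg ((K : ℝ) - 1)])) (hup _ (by positivity)
        (by nlinarith)),
      clp_id (hlow _ (by nlinarith)) (hup _ (by positivity) (by nlinarith))]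
    have e1 : 1 / ang q * (1 / 2 * Real.log (((X : ℝ) + 1) ^ 2 + ((K : ℝ) - 1) ^ 2) -
        1 / 2 * Real.log (((X : ℝ) + 1) ^ 2 + (K : ℝ) ^ 2)) +
        (1 * (1 - Real.arctan ((K : ℝ) / (X + 1)) / ang q) -
          1 * (1 - Real.arctan ((K : ℝ) / X) / ang q)) =
        1 / ang q * (((Real.arctan ((K : ℝ) / X) - Real.arctan ((K : ℝ) / (X + 1))) -
          (K : ℝ) / ((X : ℝ) ^ 2 + (K : ℝ) ^ 2)) -
          (1 / 2 * (Real.log (((X : ℝ) + 1) ^ 2 + (K : ℝ) ^ 2) -
            Real.log (((X : ℝ) + 1) ^ 2 + ((K : ℝ) - 1) ^ 2)) -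
            (K : ℝ) / ((X : ℝ) ^ 2 + (K : ℝ) ^ 2))) := by
      ring
    rw [e1, abs_mul, abs_of_pos (show 0 < 1 / ang q by positivity)]
    refine mul_le_mul_of_nonneg_left ((abs_sub _ _).trans ?_) (by positivity)
    have h3 := ver_ang (X := X) (K := K) hX' hK'
    have h4 := ver_log (X := X) (K := K) hX' hK'
    have e3 : 2 / (X : ℝ) ^ 2 = 2 * (1 / (X : ℝ) ^ 2) := by ring
    have e4 : 10 / (X : ℝ) ^ 2 = 10 * (1 / (X : ℝ) ^ 2) := by ring
    rw [e3] at h3
    rw [e4] at h4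
    linarith

/-! ### the other bonds -/

/-- the masked gradient: no bonds at the upper lip -/
noncomputable def md (w : Z2 → ℝ) (e : Bnd) : ℝ := if e.1.2 < 0 then dr w e else 0

/-- the four bonds next to the tip -/
def E0 : Finset Bnd :=
  {(((0 : ℤ), (-1 : ℤ)), true), (((-1 : ℤ), (-1 : ℤ)), false), (((-1 : ℤ), (-1 : ℤ)), true),
    (((-1 : ℤ), (-2 : ℤ)), true)}

lemma wz_nonneg (q : ℕ) (m : ℝ) (f : Z2) : 0 ≤ wz q m f := by
  unfold wz
  split_ifs
  · exact xi_nonneg _ _
  · exact mul_nonneg (xi_nonneg _ _) (om_nonneg _ _ _)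
  · exact le_rfl

lemma wz_le_one (hq : 1 ≤ q) (m : ℝ) (f : Z2) : wz q m f ≤ 1 := by
  unfold wz
  split_ifs with h1 h2
  · exact xi_le_one _ _
  · have h3 : (f.2 : ℝ) ≤ -2 := by exact_mod_cast h2.1
    have h4 : (f.1 : ℝ) ≤ -2 := by exact_mod_cast h2.2
    exact mul_le_one₀ (xi_le_one _ _) (om_nonneg _ _ _)
      (om_le_one hq (by linarith) (by linarith))
  · exact zero_le_one

lemma dr_le_one (hq : 1 ≤ q) (m : ℝ) (e : Bnd) : |dr (wz q m) e| ≤ 1 := by
  unfold dr
  rw [abs_le]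
  have h1 := wz_nonneg q m (lf e)
  have h2 := wz_nonneg q m (rt e)
  have h3 := wz_le_one hq m (lf e)
  have h4 := wz_le_one hq m (rt e)
  constructor <;> linarith

lemma kf_up {q : ℕ} {c : ℝ} {e : Bnd} (h : ¬ e.1.2 < 0) : kf q c 0 e = 0 := by
  unfold kf
  refine if_neg ?_
  have h1 : rt e ∉ cone q := by
    rintro ⟨h2, _⟩
    unfold rt at h2
    split_ifs at h2
    · exact absurd h2 (by omega)
    · simp only at h2
      omega
  rintro (h2 | h2)
  · exact h1 h2.1
  · exact h1 h2.1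

/-- the faces near the tip on which the layer function does not vanish -/
lemma wz_tip (hq : 1 ≤ q) {m : ℝ} {f : Z2} (h : wz q m f ≠ 0) :
    f.1 ≤ -1 ∧ f.2 ≤ -1 ∧ (f.1 ≤ -3 ∨ f.2 = -1) := by
  unfold wz at h
  split_ifs at h with h1 h2
  · exact ⟨h1.2, by omega, Or.inr h1.1⟩
  · refine ⟨by omega, by omega, Or.inl ?_⟩
    by_contra hc
    have h3 : f.1 = -2 := by omega
    have h4 := om_pos hq (by rw [h3]; norm_num) (right_ne_zero_of_mul h)
    have h5 : (f.2 : ℝ) ≤ -2 := by exact_mod_cast h2.1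
    have hq' : (1 : ℝ) ≤ q := by exact_mod_cast hq
    rw [h3] at h4
    push_cast at h4
    nlinarith
  · exact absurd rfl h

lemma dr_exc (hq : 1 ≤ q) {m : ℝ} {e : Bnd} (h2 : e.1.2 < 0) (h1 : -1 ≤ e.1.1)
    (h : dr (wz q m) e ≠ 0) : e ∈ E0 := by
  have h3 : wz q m (lf e) ≠ 0 ∨ wz q m (rt e) ≠ 0 := by
    by_contra hc
    push Not at hc
    apply h
    unfold dr
    rw [hc.1, hc.2, sub_zero]
  obtain ⟨⟨i, j⟩, d⟩ := e
  simp only at h1 h2
  cases d
  · have h4 : i = -1 ∧ j = -1 := by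
      rcases h3 with h3 | h3
      · have h5 := wz_tip hq h3
        unfold lf at h5
        simp only [Bool.false_eq_true, if_false] at h5
        omega
      · have h5 := wz_tip hq h3
        unfold rt at h5
        simp only [Bool.false_eq_true, if_false] at h5
        omega
    rw [h4.1, h4.2]
    simp [E0]
  · have h4 : (i = -1 ∨ i = 0) ∧ j = -1 := by
      rcases h3 with h3 | h3
      · have h5 := wz_tip hq h3
        unfold lf at h5
        simp only [if_true] at h5
        omega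
      · have h5 := wz_tip hq h3
        unfold rt at h5
        simp only [if_true] at h5
        omega
    rcases h4 with ⟨h4 | h4, h5⟩
    · rw [h4, h5]
      simp [E0]
    · rw [h4, h5]
      simp [E0]

lemma kf_exc (hq : 1 ≤ q) {c : ℝ} {e : Bnd} (h1 : -1 ≤ e.1.1)
    (h : kf q c 0 e ≠ 0) : e ∈ E0 := by
  have h3 : rt e ∈ cone q := by
    unfold kf at h
    split_ifs at h with h4
    · rcases h4 with h4 | h4
      · exact h4.1
      · exact h4.1
    · exact absurd rfl h
  obtain ⟨⟨i, j⟩, d⟩ := e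
  simp only at h1
  have hq' : (1 : ℤ) ≤ q := by exact_mod_cast hq
  cases d
  · unfold rt at h3
    simp only [Bool.false_eq_true, if_false] at h3
    obtain ⟨h4, h5⟩ := h3
    simp only at h4 h5
    have h6 : (-1 - (j - 1)) ≤ (q : ℤ) * (-1 - (j - 1)) := le_mul_of_one_le_left (by omega) hq'
    have h7 : i = -1 := by omega
    have h8 : j = -1 := by omega
    rw [h7, h8]
    simp [E0]
  · unfold rt at h3
    simp only [if_true] at h3
    obtain ⟨h4, h5⟩ := h3
    simp only at h4 h5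
    have h6 : (-1 - j) ≤ (q : ℤ) * (-1 - j) := le_mul_of_one_le_left (by omega) hq'
    have h7 : i = -1 := by omega
    have h8 : j = -2 := by omega
    rw [h7, h8]
    simp [E0]

lemma bo_of {e : Bnd} (h2 : e.1.2 < 0) (h1 : ¬ -1 ≤ e.1.1) :
    ∃ X K : ℕ, 1 ≤ X ∧ 1 ≤ K ∧ e = bo X K e.2 := by
  obtain ⟨⟨i, j⟩, d⟩ := e
  simp only at h1 h2
  refine ⟨(-i - 1).toNat, (-j).toNat, by omega, by omega, ?_⟩
  unfold bo
  simp only [Prod.mk.injEq, and_true]
  constructor <;> omega

lemma bo_inj {X K X' K' : ℕ} {d d' : Bool} (h : bo X K d = bo X' K' d') :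
    X = X' ∧ K = K' ∧ d = d' := by
  unfold bo at h
  simp only [Prod.mk.injEq] at h
  refine ⟨by omega, by omega, h.2⟩

lemma bo_neg {X K : ℕ} {d : Bool} (hK : 1 ≤ K) : (bo X K d).1.2 < 0 := by
  unfold bo
  simp only
  omega

/-! ### summation -/

lemma sum_inv_sq (M : ℕ) : ∑ X ∈ Finset.Icc 1 M, 1 / (X : ℝ) ^ 2 ≤ 2 := by
  have h := sum_Ioo_inv_sq_le (α := ℝ) 0 (M + 1)
  have e : Finset.Icc 1 M = Finset.Ioo 0 (M + 1) := by
    ext x
    simp only [Finset.mem_Icc, Finset.mem_Ioo]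
    omega
  rw [e]
  simp only [one_div]
  refine h.trans ?_
  norm_num

lemma sum_zone {m : ℝ} (hm : 1 ≤ m) (n0 : ℕ) : ∑ X ∈ Finset.Icc 1 ⌊2 * m⌋₊,
    (if n0 ≤ X ∧ 4 * (X : ℝ) ≤ m then (0 : ℝ) else 1 / (X : ℝ)) ≤ n0 + 8 := by
  have hm0 : 0 < m := by linarith
  calc ∑ X ∈ Finset.Icc 1 ⌊2 * m⌋₊,
        (if n0 ≤ X ∧ 4 * (X : ℝ) ≤ m then (0 : ℝ) else 1 / (X : ℝ)) ≤
        ∑ X ∈ Finset.Icc 1 ⌊2 * m⌋₊, ((if X < n0 then (1 : ℝ) else 0) + 4 / m) := by
        refine Finset.sum_le_sum fun X hX => ?_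
        rw [Finset.mem_Icc] at hX
        have hX1 : (1 : ℝ) ≤ X := by exact_mod_cast hX.1
        by_cases h : n0 ≤ X ∧ 4 * (X : ℝ) ≤ m
        · rw [if_pos h]
          split_ifs <;> positivity
        · rw [if_neg h]
          by_cases h2 : X < n0
          · rw [if_pos h2]
            have h3 : 1 / (X : ℝ) ≤ 1 := by
              rw [div_le_one (by positivity)]
              exact hX1
            have h4 : 0 < 4 / m := by positivity
            linarith
          · rw [if_neg h2, zero_add, div_le_div_iff₀ (by positivity) hm0]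
            have h3 : ¬ 4 * (X : ℝ) ≤ m := fun h4 => h ⟨not_lt.1 h2, h4⟩
            linarith [not_le.1 h3]
    _ = ∑ X ∈ Finset.Icc 1 ⌊2 * m⌋₊, (if X < n0 then (1 : ℝ) else 0) +
          (⌊2 * m⌋₊ : ℝ) * (4 / m) := by
        rw [Finset.sum_add_distrib, Finset.sum_const, Nat.card_Icc, nsmul_eq_mul]
        simp
    _ ≤ n0 + 8 := by
        refine add_le_add ?_ ?_
        · rw [← Finset.sum_filter, Finset.sum_const, nsmul_eq_mul, mul_one]
          have h1 : (Finset.Icc 1 ⌊2 * m⌋₊).filter (fun X => X < n0) ⊆ Finset.range n0 := by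
            intro x hx
            rw [Finset.mem_filter] at hx
            exact Finset.mem_range.2 hx.2
          have h2 := Finset.card_le_card h1
          rw [Finset.card_range] at h2
          exact_mod_cast h2
        · have h1 : (⌊2 * m⌋₊ : ℝ) ≤ 2 * m := Nat.floor_le (by positivity)
          calc (⌊2 * m⌋₊ : ℝ) * (4 / m) ≤ 2 * m * (4 / m) :=
                mul_le_mul_of_nonneg_right h1 (by positivity)
            _ = 8 := by
              field_simp
              norm_num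

/-- one column -/
lemma column (hq : 1 ≤ q) {m : ℝ} (hm : 1 ≤ m) {n0 : ℕ} (hn : 1 ≤ n0) {X : ℕ} (hX : 1 ≤ X)
    (N : ℕ) : ∑ K ∈ Finset.Icc 1 N, ∑ d : Bool, tot q n0 m (bo X K d) ^ 2 ≤
      1064 / ang q ^ 2 * (1 / (X : ℝ) ^ 2) +
        350 / ang q ^ 2 * (if n0 ≤ X ∧ 4 * (X : ℝ) ≤ m then (0 : ℝ) else 1 / (X : ℝ)) := by
  have h2 := ang_pos' hq
  have hX1 : (1 : ℝ) ≤ X := by exact_mod_cast hX
  have hX0 : (0 : ℝ) < X := by linarith
  set A : Finset ℕ := (Finset.Icc 1 N).filter fun K => q * K ≤ X + 1 + q with hA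
  set B : Finset ℕ := (Finset.Icc 1 N).filter fun K =>
    q * K ≤ X + 1 + q ∧ (K = 1 ∨ X < q * (K + 1)) with hB
  have hAc : (A.card : ℝ) ≤ X + 2 := by
    have h1 : A ⊆ Finset.Icc 1 (X + 2) := by
      intro K hK
      rw [hA, Finset.mem_filter, Finset.mem_Icc] at hK
      rw [Finset.mem_Icc]
      refine ⟨hK.1.1, ?_⟩
      by_contra hc
      push Not at hc
      have h3 : q * (X + 3) ≤ q * K := Nat.mul_le_mul_left _ hc
      have h4 : X + 2 ≤ q * (X + 2) := Nat.le_mul_of_pos_left _ hq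
      have h5 : q * (X + 3) = q * (X + 2) + q := by ring
      omega
    have h3 := Finset.card_le_card h1
    rw [Nat.card_Icc] at h3
    have h4 : A.card ≤ X + 2 := by omega
    exact_mod_cast h4
  have hBc : (B.card : ℝ) ≤ 4 := by
    have h1 : B ⊆ {1} ∪ Finset.Icc (X / q) (X / q + 2) := by
      intro K hK
      rw [hB, Finset.mem_filter, Finset.mem_Icc] at hK
      rw [Finset.mem_union, Finset.mem_singleton, Finset.mem_Icc]
      obtain ⟨⟨_, _⟩, h3, h4 | h4⟩ := hK
      · exact Or.inl h4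
      · right
        have h5 : X / q < K + 1 := by
          rw [Nat.div_lt_iff_lt_mul (by omega)]
          rw [mul_comm]
          exact h4
        have h6 : K ≤ (X + 1 + q) / q := by
          rw [Nat.le_div_iff_mul_le (by omega), mul_comm]
          exact h3
        have h7 : (X + 1 + q) / q = (X + 1) / q + 1 := Nat.add_div_right _ (by omega)
        have h8 : (X + 1) / q ≤ X / q + 1 := by
          have h9 : (X + 1) / q ≤ (X + q) / q := Nat.div_le_div_right (by omega)
          rwa [Nat.add_div_right _ (by omega : 0 < q)] at h9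
        omega
    have h3 := (Finset.card_le_card h1).trans (Finset.card_union_le _ _)
    rw [Finset.card_singleton, Nat.card_Icc] at h3
    have h4 : B.card ≤ 4 := by omega
    exact_mod_cast h4
  set α : ℝ := if n0 ≤ X ∧ 4 * (X : ℝ) ≤ m then 144 / (ang q ^ 2 * (X : ℝ) ^ 4) else
    25 / (ang q ^ 2 * (X : ℝ) ^ 2) with hα
  have hα0 : 0 ≤ α := by
    rw [hα]
    split_ifs <;> positivity
  set β : ℝ := 25 / (ang q ^ 2 * (X : ℝ) ^ 2) with hβ
  have hβ0 : 0 ≤ β := by positivity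
  have hterm : ∀ K ∈ Finset.Icc 1 N, ∑ d : Bool, tot q n0 m (bo X K d) ^ 2 ≤
      (if q * K ≤ X + 1 + q then 2 * α else 0) +
        (if q * K ≤ X + 1 + q ∧ (K = 1 ∨ X < q * (K + 1)) then 2 * β else 0) := by
    intro K hK
    rw [Finset.mem_Icc] at hK
    by_cases hr : q * K ≤ X + 1 + q
    · rw [if_pos hr]
      have hcr : ∀ d : Bool, tot q n0 m (bo X K d) ^ 2 ≤ β := by
        intro d
        have h1 := tot_crude hq (by linarith : 0 < m) n0 hX hK.1 d
        calc tot q n0 m (bo X K d) ^ 2 = |tot q n0 m (bo X K d)| ^ 2 := (sq_abs _).symm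
          _ ≤ (5 / (ang q * X)) ^ 2 := pow_le_pow_left₀ (abs_nonneg _) h1 2
          _ = β := by
            rw [hβ, div_pow, mul_pow]
            norm_num
      by_cases hs : K = 1 ∨ X < q * (K + 1)
      · rw [if_pos ⟨hr, hs⟩, Fintype.sum_bool]
        have := hcr true
        have := hcr false
        linarith
      · rw [if_neg (fun h => hs h.2), add_zero, Fintype.sum_bool]
        push Not at hs
        by_cases hz : n0 ≤ X ∧ 4 * (X : ℝ) ≤ m
        · have hm' : ∀ d : Bool, tot q n0 m (bo X K d) ^ 2 ≤ α := by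
            intro d
            have h1 := tot_main hq hn (K := K) (X := X) (by omega) hs.2 hz.1 hz.2 d
            calc tot q n0 m (bo X K d) ^ 2 = |tot q n0 m (bo X K d)| ^ 2 := (sq_abs _).symm
              _ ≤ (12 / (ang q * (X : ℝ) ^ 2)) ^ 2 := pow_le_pow_left₀ (abs_nonneg _) h1 2
              _ = α := by
                rw [hα, if_pos hz, div_pow, mul_pow]
                norm_num
                ring_nf
          have := hm' true
          have := hm' false
          linarith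
        · have hαβ : α = β := by
            rw [hα, if_neg hz]
          rw [hαβ]
          have := hcr true
          have := hcr false
          linarith
    · have h0 : ∀ d : Bool, tot q n0 m (bo X K d) = 0 := by
        intro d
        by_contra hc
        exact hr (tot_rel hq hm hX hK.1 hc).1
      rw [if_neg hr, if_neg (fun h => hr h.1), Fintype.sum_bool, h0, h0]
      norm_num
  have hsum : ∑ K ∈ Finset.Icc 1 N, ∑ d : Bool, tot q n0 m (bo X K d) ^ 2 ≤
      A.card * (2 * α) + B.card * (2 * β) := by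
    refine (Finset.sum_le_sum hterm).trans (le_of_eq ?_)
    rw [Finset.sum_add_distrib, ← Finset.sum_filter, ← Finset.sum_filter, Finset.sum_const,
      Finset.sum_const, nsmul_eq_mul, nsmul_eq_mul]
  have h3 : A.card * (2 * α) + B.card * (2 * β) ≤ (X + 2) * (2 * α) + 4 * (2 * β) :=
    add_le_add (mul_le_mul_of_nonneg_right hAc (by positivity))
      (mul_le_mul_of_nonneg_right hBc (by positivity))
  refine hsum.trans (h3.trans ?_)
  have h4 : ((X : ℝ) + 2) * (2 * α) ≤ 3 * X * (2 * α) :=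
    mul_le_mul_of_nonneg_right (by linarith) (by positivity)
  have hp : 0 < 1 / (X : ℝ) ^ 2 := by positivity
  have hd2 : 0 < 1 / ang q ^ 2 := by positivity
  have eβ : 4 * (2 * β) = 200 * (1 / ang q ^ 2 * (1 / (X : ℝ) ^ 2)) := by
    rw [hβ]
    field_simp
    norm_num
  by_cases hz : n0 ≤ X ∧ 4 * (X : ℝ) ≤ m
  · rw [if_pos hz, mul_zero, add_zero]
    have eα : 3 * X * (2 * α) = 864 * (1 / ang q ^ 2 * (1 / (X : ℝ) ^ 3)) := by
      rw [hα, if_pos hz]
      field_simp
      norm_num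
    have h5 : 1 / (X : ℝ) ^ 3 ≤ 1 / (X : ℝ) ^ 2 :=
      one_div_le_one_div_of_le (by positivity) (pow_le_pow_right₀ hX1 (by norm_num))
    have h6 : 1 / ang q ^ 2 * (1 / (X : ℝ) ^ 3) ≤ 1 / ang q ^ 2 * (1 / (X : ℝ) ^ 2) :=
      mul_le_mul_of_nonneg_left h5 hd2.le
    have e1 : 1064 / ang q ^ 2 * (1 / (X : ℝ) ^ 2) =
        1064 * (1 / ang q ^ 2 * (1 / (X : ℝ) ^ 2)) := by ring
    rw [e1]
    linarith
  · rw [if_neg hz]
    have eα : 3 * X * (2 * α) = 150 * (1 / ang q ^ 2 * (1 / (X : ℝ))) := by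
      rw [hα, if_neg hz, hβ]
      field_simp
      norm_num
    have h6 : 0 < 1 / ang q ^ 2 * (1 / (X : ℝ)) := by positivity
    have h7 : 0 < 1 / ang q ^ 2 * (1 / (X : ℝ) ^ 2) := by positivity
    have e1 : 1064 / ang q ^ 2 * (1 / (X : ℝ) ^ 2) =
        1064 * (1 / ang q ^ 2 * (1 / (X : ℝ) ^ 2)) := by ring
    have e2 : 350 / ang q ^ 2 * (1 / (X : ℝ)) = 350 * (1 / ang q ^ 2 * (1 / (X : ℝ))) := by ring
    rw [e1, e2]
    linarith

/-- the sum over all bonds -/
theorem sum_tot (hq : 1 ≤ q) {n0 : ℕ} (hn : 1 ≤ n0) : ∃ C : ℝ, 0 < C ∧ ∀ m : ℝ, 1 ≤ m →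
    ∀ S : Finset Bnd,
      ∑ e ∈ S, (Kf q (1 / ang q) 0 (clp n0 m) e + md (wz q m) e) ^ 2 ≤ C := by
  classical
  have h2 := ang_pos' hq
  set C0 : ℝ := ∑ e ∈ E0, (1 / ang q * |tau (bt e) - tau (bs e)| + 1) ^ 2 with hC0
  have hC00 : 0 ≤ C0 := Finset.sum_nonneg fun e _ => sq_nonneg _
  refine ⟨C0 + (1064 / ang q ^ 2 * 2 + 350 / ang q ^ 2 * (n0 + 8)), by positivity,
    fun m hm S => ?_⟩
  have hm0 : 0 < m := by linarith
  set t : Bnd → ℝ := fun e => (Kf q (1 / ang q) 0 (clp n0 m) e + md (wz q m) e) ^ 2 with ht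
  have ht0 : ∀ e, 0 ≤ t e := fun e => sq_nonneg _
  set M : ℕ := ⌊2 * m⌋₊ with hM
  set Box : Finset ((ℕ × ℕ) × Bool) :=
    (Finset.Icc 1 M ×ˢ Finset.Icc 1 (M + 2)) ×ˢ Finset.univ with hBox
  set φ : (ℕ × ℕ) × Bool → Bnd := fun p => bo p.1.1 p.1.2 p.2 with hφ
  have hinj : Function.Injective φ := by
    rintro ⟨⟨X, K⟩, d⟩ ⟨⟨X', K'⟩, d'⟩ h
    obtain ⟨h1, h3, h4⟩ := bo_inj h
    exact Prod.ext (Prod.ext h1 h3) h4
  have hsub : S.filter (fun e => t e ≠ 0) ⊆ E0 ∪ Box.image φ := by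
    intro e he
    rw [Finset.mem_filter] at he
    have he' : Kf q (1 / ang q) 0 (clp n0 m) e + md (wz q m) e ≠ 0 := by
      intro h
      apply he.2
      rw [ht]
      simp only [h]
      norm_num
    have hneg : e.1.2 < 0 := by
      by_contra hc
      apply he'
      unfold Kf md
      rw [kf_up hc, if_neg hc, zero_mul, add_zero]
    have hmd : md (wz q m) e = dr (wz q m) e := if_pos hneg
    rw [hmd] at he'
    rw [Finset.mem_union]
    by_cases h1 : -1 ≤ e.1.1
    · left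
      by_cases h3 : dr (wz q m) e = 0
      · rw [h3, add_zero] at he'
        unfold Kf at he'
        exact kf_exc hq h1 (left_ne_zero_of_mul he')
      · exact dr_exc hq hneg h1 h3
    · right
      obtain ⟨X, K, hX, hK, hbo⟩ := bo_of hneg h1
      have h3 : tot q n0 m (bo X K e.2) ≠ 0 := by
        rw [← hbo]
        exact he'
      obtain ⟨h4, h5⟩ := tot_rel hq hm hX hK h3
      rw [Finset.mem_image]
      refine ⟨((X, K), e.2), ?_, hbo.symm⟩
      have h6 : X ≤ M := by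
        rw [hM]
        exact Nat.le_floor (by linarith)
      have h7 : K ≤ X + 2 := by
        by_contra hc
        push Not at hc
        have h8 : q * (X + 3) ≤ q * K := Nat.mul_le_mul_left _ hc
        have h9 : X + 2 ≤ q * (X + 2) := Nat.le_mul_of_pos_left _ hq
        have h10 : q * (X + 3) = q * (X + 2) + q := by ring
        omega
      rw [hBox, Finset.mem_product, Finset.mem_product, Finset.mem_Icc, Finset.mem_Icc]
      exact ⟨⟨⟨hX, h6⟩, hK, show K ≤ M + 2 by omega⟩, Finset.mem_univ _⟩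
  have hE0 : ∑ e ∈ E0, t e ≤ C0 := by
    refine Finset.sum_le_sum fun e _ => ?_
    have h3 : |Kf q (1 / ang q) 0 (clp n0 m) e + md (wz q m) e| ≤
        1 / ang q * |tau (bt e) - tau (bs e)| + 1 := by
      refine (abs_add_le _ _).trans (add_le_add ?_ ?_)
      · unfold Kf
        rw [abs_mul]
        exact mul_le_mul (kf_abs hq e) (clp_lip _ _ _ _) (abs_nonneg _) (by positivity)
      · unfold md
        split_ifs
        · exact dr_le_one hq m e
        · rw [abs_zero]
          exact zero_le_one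
    rw [ht]
    simp only
    rw [← sq_abs]
    exact pow_le_pow_left₀ (abs_nonneg _) h3 2
  have hBoxsum : ∑ e ∈ Box.image φ, t e ≤
      1064 / ang q ^ 2 * 2 + 350 / ang q ^ 2 * (n0 + 8) := by
    rw [Finset.sum_image fun a _ b _ h => hinj h, hBox, Finset.sum_product, Finset.sum_product]
    calc ∑ X ∈ Finset.Icc 1 M, ∑ K ∈ Finset.Icc 1 (M + 2), ∑ d : Bool, t (φ ((X, K), d)) ≤
          ∑ X ∈ Finset.Icc 1 M, (1064 / ang q ^ 2 * (1 / (X : ℝ) ^ 2) +
            350 / ang q ^ 2 *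
              (if n0 ≤ X ∧ 4 * (X : ℝ) ≤ m then (0 : ℝ) else 1 / (X : ℝ))) := by
          refine Finset.sum_le_sum fun X hX => ?_
          rw [Finset.mem_Icc] at hX
          refine le_trans (le_of_eq ?_) (column hq hm hn hX.1 (M + 2))
          refine Finset.sum_congr rfl fun K hK => Finset.sum_congr rfl fun d _ => ?_
          rw [Finset.mem_Icc] at hK
          rw [ht, hφ]
          simp only
          unfold md tot
          rw [if_pos (bo_neg hK.1)]
      _ = 1064 / ang q ^ 2 * ∑ X ∈ Finset.Icc 1 M, (1 / (X : ℝ) ^ 2) + 350 / ang q ^ 2 *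
            ∑ X ∈ Finset.Icc 1 M,
              (if n0 ≤ X ∧ 4 * (X : ℝ) ≤ m then (0 : ℝ) else 1 / (X : ℝ)) := by
          rw [Finset.sum_add_distrib, Finset.mul_sum, Finset.mul_sum]
      _ ≤ 1064 / ang q ^ 2 * 2 + 350 / ang q ^ 2 * (n0 + 8) :=
          add_le_add (mul_le_mul_of_nonneg_left (sum_inv_sq M) (by positivity))
            (mul_le_mul_of_nonneg_left (sum_zone hm n0) (by positivity))
  calc ∑ e ∈ S, t e = ∑ e ∈ S.filter (fun e => t e ≠ 0), t e :=
        (Finset.sum_filter_ne_zero S).symm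
    _ ≤ ∑ e ∈ E0 ∪ Box.image φ, t e :=
        Finset.sum_le_sum_of_subset_of_nonneg hsub fun e _ _ => ht0 e
    _ ≤ ∑ e ∈ E0, t e + ∑ e ∈ Box.image φ, t e := by
        rw [← Finset.sum_union_inter]
        have : 0 ≤ ∑ e ∈ E0 ∩ Box.image φ, t e := Finset.sum_nonneg fun e _ => ht0 e
        linarith
    _ ≤ C0 + (1064 / ang q ^ 2 * 2 + 350 / ang q ^ 2 * (n0 + 8)) := add_le_add hE0 hBoxsum

end Vale.Agent.P159.T1.S.H757
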