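import Mathlib

/-!
# P159 stage 2, S.W: real inequalities for the layer field

`X`, `K` are the coordinates of a bond below the lower lip (`X` to the left, `K` down).
-/

namespace Vale.Agent.P159.T1.S.H757

lemma arctan_sub' {a b : ℝ} (ha : 0 ≤ a) (hb : 0 ≤ b) :
    Real.arctan b - Real.arctan a = Real.arctan ((b - a) / (1 + a * b)) := by
  have h : b * -a < 1 := by nlinarith [mul_nonneg ha hb]
  have h2 := Real.arctan_add h
  rw [Real.arctan_neg] at h2
  rw [sub_eq_add_neg, h2]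
  congr 1
  ring

lemma arctan_le_self {a : ℝ} (ha : 0 ≤ a) : Real.arctan a ≤ a := by
  have hd : ∀ x : ℝ, HasDerivAt (fun x => x - Real.arctan x) (1 - 1 / (1 + x ^ 2)) x :=
    fun x => (hasDerivAt_id' x).sub (Real.hasDerivAt_arctan x)
  have h : MonotoneOn (fun x => x - Real.arctan x) (Set.Ici (0 : ℝ)) := by
    refine monotoneOn_of_deriv_nonneg (convex_Ici 0) ?_ ?_ fun x _ => ?_
    · exact fun x _ => (hd x).continuousAt.continuousWithinAt
    · exact fun x _ => (hd x).differentiableAt.differentiableWithinAt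
    · rw [(hd x).deriv]
      have h1 : 1 / (1 + x ^ 2) ≤ 1 := by
        rw [div_le_one (by positivity)]
        nlinarith [sq_nonneg x]
      linarith
  have h2 := h (Set.mem_Ici.2 le_rfl) (Set.mem_Ici.2 ha) ha
  simp only [Real.arctan_zero, sub_zero] at h2
  linarith

lemma le_arctan {a : ℝ} (ha : 0 ≤ a) : a / (1 + a ^ 2) ≤ Real.arctan a := by
  have hd : ∀ x : ℝ, HasDerivAt (fun x => Real.arctan x - x / (1 + x ^ 2))
      (1 / (1 + x ^ 2) - (1 * (1 + x ^ 2) - x * (2 * x)) / (1 + x ^ 2) ^ 2) x := by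
    intro x
    have h1 : HasDerivAt (fun x : ℝ => 1 + x ^ 2) (2 * x) x := by
      have := (hasDerivAt_pow 2 x).const_add 1
      simpa using this
    exact (Real.hasDerivAt_arctan x).sub ((hasDerivAt_id x).div h1 (by positivity))
  have h : MonotoneOn (fun x => Real.arctan x - x / (1 + x ^ 2)) (Set.Ici (0 : ℝ)) := by
    refine monotoneOn_of_deriv_nonneg (convex_Ici 0) ?_ ?_ fun x _ => ?_
    · exact fun x _ => (hd x).continuousAt.continuousWithinAt
    · exact fun x _ => (hd x).differentiableAt.differentiableWithinAt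
    · rw [(hd x).deriv]
      have h1 : (0 : ℝ) < 1 + x ^ 2 := by positivity
      have h2 : 1 / (1 + x ^ 2) - (1 * (1 + x ^ 2) - x * (2 * x)) / (1 + x ^ 2) ^ 2 =
          2 * x ^ 2 / (1 + x ^ 2) ^ 2 := by
        field_simp
        ring
      rw [h2]
      positivity
  have h2 := h (Set.mem_Ici.2 le_rfl) (Set.mem_Ici.2 ha) ha
  simp only [Real.arctan_zero, zero_div, sub_zero] at h2
  linarith

lemma arctan_close {a : ℝ} (ha : 0 ≤ a) : |Real.arctan a - a| ≤ a ^ 2 := by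
  have h1 := arctan_le_self ha
  have h2 := le_arctan ha
  rw [abs_sub_comm, abs_of_nonneg (by linarith)]
  have h3 : a - a / (1 + a ^ 2) ≤ a ^ 2 := by
    have h4 : a - a / (1 + a ^ 2) = a ^ 2 * (a / (1 + a ^ 2)) := by
      field_simp
      ring
    rw [h4]
    have h5 : a / (1 + a ^ 2) ≤ 1 := by
      rw [div_le_one (by positivity)]
      nlinarith [sq_nonneg (a - 1 / 2)]
    nlinarith [sq_nonneg a]
  linarith

lemma log_close {t : ℝ} (ht : 0 ≤ t) : |Real.log (1 + t) - t| ≤ t ^ 2 := by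
  have h1 : Real.log (1 + t) ≤ t := by
    have := Real.log_le_sub_one_of_pos (show 0 < 1 + t by linarith)
    linarith
  have h2 : 1 - (1 + t)⁻¹ ≤ Real.log (1 + t) := Real.one_sub_inv_le_log_of_pos (by linarith)
  have h3 : t - t ^ 2 ≤ 1 - (1 + t)⁻¹ := by
    have h4 : 1 - (1 + t)⁻¹ - (t - t ^ 2) = t ^ 3 / (1 + t) := by
      field_simp
      ring
    have h5 : 0 ≤ t ^ 3 / (1 + t) := by positivity
    linarith
  rw [abs_sub_comm, abs_of_nonneg (by linarith)]
  linarith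

section bonds

variable {X K : ℝ}

/-- horizontal bonds: the angle -/
lemma hor_ang (hX : 1 ≤ X) (hK : 1 ≤ K) :
    |(Real.arctan ((K + 1) / X) - Real.arctan (K / X)) - X / (X ^ 2 + K ^ 2)| ≤ 2 / X ^ 2 := by
  have hX0 : 0 < X := by linarith
  have hK0 : 0 < K := by linarith
  rw [arctan_sub' (by positivity) (by positivity)]
  have e1 : ((K + 1) / X - K / X) / (1 + K / X * ((K + 1) / X)) =
      X / (X ^ 2 + K * (K + 1)) := by
    field_simp
    ring
  rw [e1]
  set a : ℝ := X / (X ^ 2 + K * (K + 1)) with ha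
  have ha0 : 0 ≤ a := by positivity
  have ha1 : a ≤ 1 / X := by
    rw [ha, div_le_div_iff₀ (by positivity) hX0]
    nlinarith
  have h1 := arctan_close ha0
  have h2 : a ^ 2 ≤ 1 / X ^ 2 := by
    calc a ^ 2 ≤ (1 / X) ^ 2 := pow_le_pow_left₀ ha0 ha1 2
      _ = 1 / X ^ 2 := by rw [div_pow, one_pow]
  have h3 : |a - X / (X ^ 2 + K ^ 2)| ≤ 1 / X ^ 2 := by
    have h4 : X / (X ^ 2 + K ^ 2) - a =
        X * K / ((X ^ 2 + K ^ 2) * (X ^ 2 + K * (K + 1))) := by
      rw [ha]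
      field_simp
      ring
    rw [abs_sub_comm, h4, abs_of_nonneg (by positivity), div_le_div_iff₀ (by positivity)
      (by positivity)]
    have h5 : X * K ≤ X ^ 2 + K ^ 2 := by nlinarith [sq_nonneg (X - K), sq_nonneg (X + K)]
    have h6 : X ^ 2 ≤ X ^ 2 + K * (K + 1) := by nlinarith
    calc X * K * X ^ 2 ≤ (X ^ 2 + K ^ 2) * (X ^ 2 + K * (K + 1)) :=
          mul_le_mul h5 h6 (by positivity) (by positivity)
      _ = 1 * ((X ^ 2 + K ^ 2) * (X ^ 2 + K * (K + 1))) := by ring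
  calc |Real.arctan a - X / (X ^ 2 + K ^ 2)| = |(Real.arctan a - a) +
        (a - X / (X ^ 2 + K ^ 2))| := by ring_nf
    _ ≤ |Real.arctan a - a| + |a - X / (X ^ 2 + K ^ 2)| := abs_add_le _ _
    _ ≤ 1 / X ^ 2 + 1 / X ^ 2 := add_le_add (h1.trans h2) h3
    _ = 2 / X ^ 2 := by ring

/-- horizontal bonds: the logarithm -/
lemma hor_log (hX : 1 ≤ X) (hK : 1 ≤ K) :
    |1 / 2 * (Real.log ((X + 1) ^ 2 + K ^ 2) - Real.log (X ^ 2 + K ^ 2)) -
      X / (X ^ 2 + K ^ 2)| ≤ 5 / X ^ 2 := by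
  have hX0 : 0 < X := by linarith
  have hK0 : 0 < K := by linarith
  set N : ℝ := X ^ 2 + K ^ 2 with hN
  have hN0 : 0 < N := by positivity
  have hNX : X ^ 2 ≤ N := by nlinarith [sq_nonneg K]
  set t : ℝ := (2 * X + 1) / N with ht
  have ht0 : 0 ≤ t := by positivity
  have e1 : Real.log ((X + 1) ^ 2 + K ^ 2) - Real.log N = Real.log (1 + t) := by
    rw [← Real.log_div (by positivity) hN0.ne']
    congr 1
    rw [ht, hN]
    field_simp
    ring
  rw [e1]
  have h1 := log_close ht0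
  have ht1 : t ≤ 3 / X := by
    rw [ht, div_le_div_iff₀ hN0 hX0]
    nlinarith
  have h2 : t ^ 2 ≤ 9 / X ^ 2 := by
    calc t ^ 2 ≤ (3 / X) ^ 2 := pow_le_pow_left₀ ht0 ht1 2
      _ = 9 / X ^ 2 := by rw [div_pow]; norm_num
  have h3 : |1 / 2 * t - X / N| ≤ 1 / 2 * (1 / X ^ 2) := by
    have h4 : 1 / 2 * t - X / N = 1 / 2 * (1 / N) := by
      rw [ht]
      field_simp
      ring
    rw [h4, abs_of_nonneg (by positivity)]
    exact mul_le_mul_of_nonneg_left (one_div_le_one_div_of_le (by positivity) hNX) (by norm_num)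
  calc |1 / 2 * Real.log (1 + t) - X / N| =
        |1 / 2 * (Real.log (1 + t) - t) + (1 / 2 * t - X / N)| := by ring_nf
    _ ≤ |1 / 2 * (Real.log (1 + t) - t)| + |1 / 2 * t - X / N| := abs_add_le _ _
    _ ≤ 1 / 2 * (9 / X ^ 2) + 1 / 2 * (1 / X ^ 2) := by
        refine add_le_add ?_ h3
        rw [abs_mul, abs_of_pos (by norm_num : (0 : ℝ) < 1 / 2)]
        exact mul_le_mul_of_nonneg_left (h1.trans h2) (by norm_num)
    _ = 5 / X ^ 2 := by ring

/-- vertical bonds: the angle -/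
lemma ver_ang (hX : 1 ≤ X) (hK : 1 ≤ K) :
    |(Real.arctan (K / X) - Real.arctan (K / (X + 1))) - K / (X ^ 2 + K ^ 2)| ≤ 2 / X ^ 2 := by
  have hX0 : 0 < X := by linarith
  have hK0 : 0 < K := by linarith
  rw [arctan_sub' (by positivity) (by positivity)]
  have e1 : (K / X - K / (X + 1)) / (1 + K / (X + 1) * (K / X)) =
      K / (X * (X + 1) + K ^ 2) := by
    field_simp
    ring
  rw [e1]
  set a : ℝ := K / (X * (X + 1) + K ^ 2) with ha
  have ha0 : 0 ≤ a := by positivity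
  have ha1 : a ≤ 1 / X := by
    rw [ha, div_le_div_iff₀ (by positivity) hX0]
    nlinarith [sq_nonneg (X - K), sq_nonneg (X + K)]
  have h1 := arctan_close ha0
  have h2 : a ^ 2 ≤ 1 / X ^ 2 := by
    calc a ^ 2 ≤ (1 / X) ^ 2 := pow_le_pow_left₀ ha0 ha1 2
      _ = 1 / X ^ 2 := by rw [div_pow, one_pow]
  have h3 : |a - K / (X ^ 2 + K ^ 2)| ≤ 1 / X ^ 2 := by
    have h4 : K / (X ^ 2 + K ^ 2) - a =
        K * X / ((X ^ 2 + K ^ 2) * (X * (X + 1) + K ^ 2)) := by
      rw [ha]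
      field_simp
      ring
    rw [abs_sub_comm, h4, abs_of_nonneg (by positivity), div_le_div_iff₀ (by positivity)
      (by positivity)]
    have h5 : K * X ≤ X ^ 2 + K ^ 2 := by nlinarith [sq_nonneg (X - K), sq_nonneg (X + K)]
    have h6 : X ^ 2 ≤ X * (X + 1) + K ^ 2 := by nlinarith
    calc K * X * X ^ 2 ≤ (X ^ 2 + K ^ 2) * (X * (X + 1) + K ^ 2) :=
          mul_le_mul h5 h6 (by positivity) (by positivity)
      _ = 1 * ((X ^ 2 + K ^ 2) * (X * (X + 1) + K ^ 2)) := by ring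
  calc |Real.arctan a - K / (X ^ 2 + K ^ 2)| = |(Real.arctan a - a) +
        (a - K / (X ^ 2 + K ^ 2))| := by ring_nf
    _ ≤ |Real.arctan a - a| + |a - K / (X ^ 2 + K ^ 2)| := abs_add_le _ _
    _ ≤ 1 / X ^ 2 + 1 / X ^ 2 := add_le_add (h1.trans h2) h3
    _ = 2 / X ^ 2 := by ring

/-- vertical bonds: the logarithm -/
lemma ver_log (hX : 1 ≤ X) (hK : 1 ≤ K) :
    |1 / 2 * (Real.log ((X + 1) ^ 2 + K ^ 2) - Real.log ((X + 1) ^ 2 + (K - 1) ^ 2)) -
      K / (X ^ 2 + K ^ 2)| ≤ 10 / X ^ 2 := by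
  have hX0 : 0 < X := by linarith
  have hK0 : 0 < K := by linarith
  set N : ℝ := (X + 1) ^ 2 + (K - 1) ^ 2 with hN
  have hN0 : 0 < N := by positivity
  have hNX : X ^ 2 ≤ N := by nlinarith [sq_nonneg (K - 1)]
  set t : ℝ := (2 * K - 1) / N with ht
  have ht0 : 0 ≤ t := div_nonneg (by linarith) hN0.le
  have e1 : Real.log ((X + 1) ^ 2 + K ^ 2) - Real.log N = Real.log (1 + t) := by
    rw [← Real.log_div (by positivity) hN0.ne']
    congr 1
    rw [ht, hN]
    field_simp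
    ring
  rw [e1]
  have h1 := log_close ht0
  have ht1 : t ≤ 3 / X := by
    rw [ht, div_le_div_iff₀ hN0 hX0]
    nlinarith [sq_nonneg (K - 1 - X), sq_nonneg (X - (K - 1))]
  have h2 : t ^ 2 ≤ 9 / X ^ 2 := by
    calc t ^ 2 ≤ (3 / X) ^ 2 := pow_le_pow_left₀ ht0 ht1 2
      _ = 9 / X ^ 2 := by rw [div_pow]; norm_num
  have h3 : |1 / 2 * t - K / (X ^ 2 + K ^ 2)| ≤ 5 / X ^ 2 := by
    set D : ℝ := X ^ 2 + K ^ 2 with hD
    have hD0 : 0 < D := by positivity
    have hDN : 1 / N ≤ 1 / X ^ 2 := one_div_le_one_div_of_le (by positivity) hNX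
    have h4 : 1 / 2 * t - K / D = K * (2 * K - 2 * X - 2) / D * (1 / N) - 1 / 2 * (1 / N) := by
      rw [ht]
      field_simp
      rw [hD, hN]
      ring
    have h5 : |K * (2 * K - 2 * X - 2) / D| ≤ 4 := by
      rw [abs_div, abs_of_pos hD0, div_le_iff₀ hD0, abs_le]
      constructor <;> nlinarith [sq_nonneg (X - K), sq_nonneg (X + K), sq_nonneg (K - 1)]
    rw [h4]
    calc |K * (2 * K - 2 * X - 2) / D * (1 / N) - 1 / 2 * (1 / N)| ≤
          |K * (2 * K - 2 * X - 2) / D * (1 / N)| + |1 / 2 * (1 / N)| := abs_sub _ _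
      _ = |K * (2 * K - 2 * X - 2) / D| * (1 / N) + 1 / 2 * (1 / N) := by
          rw [abs_mul, abs_of_pos (show 0 < 1 / N by positivity),
            abs_of_pos (show 0 < 1 / 2 * (1 / N) by positivity)]
      _ ≤ 4 * (1 / N) + 1 * (1 / N) := by
          have h6 : 0 < 1 / N := by positivity
          nlinarith
      _ = 5 * (1 / N) := by ring
      _ ≤ 5 * (1 / X ^ 2) := mul_le_mul_of_nonneg_left hDN (by norm_num)
      _ = 5 / X ^ 2 := by ring
  calc |1 / 2 * Real.log (1 + t) - K / (X ^ 2 + K ^ 2)| =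
        |1 / 2 * (Real.log (1 + t) - t) + (1 / 2 * t - K / (X ^ 2 + K ^ 2))| := by ring_nf
    _ ≤ |1 / 2 * (Real.log (1 + t) - t)| + |1 / 2 * t - K / (X ^ 2 + K ^ 2)| := abs_add_le _ _
    _ ≤ 1 / 2 * (9 / X ^ 2) + 5 / X ^ 2 := by
        refine add_le_add ?_ h3
        rw [abs_mul, abs_of_pos (by norm_num : (0 : ℝ) < 1 / 2)]
        exact mul_le_mul_of_nonneg_left (h1.trans h2) (by norm_num)
    _ ≤ 10 / X ^ 2 := by
        have : 0 < 1 / X ^ 2 := by positivity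
        have e2 : 1 / 2 * (9 / X ^ 2) + 5 / X ^ 2 = 19 / 2 * (1 / X ^ 2) := by ring
        have e3 : 10 / X ^ 2 = 10 * (1 / X ^ 2) := by ring
        rw [e2, e3]
        linarith

/-- crude bounds -/
lemma hor_log' (hX : 1 ≤ X) :
    |1 / 2 * (Real.log ((X + 1) ^ 2 + K ^ 2) - Real.log (X ^ 2 + K ^ 2))| ≤ 3 / 2 / X := by
  have hX0 : 0 < X := by linarith
  have hN0 : 0 < X ^ 2 + K ^ 2 := by positivity
  have h0 : Real.log (X ^ 2 + K ^ 2) ≤ Real.log ((X + 1) ^ 2 + K ^ 2) :=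
    Real.log_le_log hN0 (by nlinarith)
  rw [abs_of_nonneg (by linarith), ← Real.log_div (by positivity) hN0.ne']
  have h1 := Real.log_le_sub_one_of_pos (show 0 < ((X + 1) ^ 2 + K ^ 2) / (X ^ 2 + K ^ 2) by
    positivity)
  have h2 : ((X + 1) ^ 2 + K ^ 2) / (X ^ 2 + K ^ 2) - 1 = (2 * X + 1) / (X ^ 2 + K ^ 2) := by
    field_simp
    ring
  have h3 : (2 * X + 1) / (X ^ 2 + K ^ 2) ≤ 3 / X := by
    rw [div_le_div_iff₀ hN0 hX0]
    nlinarith [sq_nonneg K]
  have e : 3 / 2 / X = 1 / 2 * (3 / X) := by ring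
  rw [e]
  linarith

lemma ver_log' (hX : 1 ≤ X) (hK : 1 ≤ K) :
    |1 / 2 * (Real.log ((X + 1) ^ 2 + K ^ 2) - Real.log ((X + 1) ^ 2 + (K - 1) ^ 2))| ≤
      3 / 2 / X := by
  have hX0 : 0 < X := by linarith
  have hN0 : 0 < (X + 1) ^ 2 + (K - 1) ^ 2 := by positivity
  have h0 : Real.log ((X + 1) ^ 2 + (K - 1) ^ 2) ≤ Real.log ((X + 1) ^ 2 + K ^ 2) :=
    Real.log_le_log hN0 (by nlinarith)
  rw [abs_of_nonneg (by linarith), ← Real.log_div (by positivity) hN0.ne']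
  have h1 := Real.log_le_sub_one_of_pos
    (show 0 < ((X + 1) ^ 2 + K ^ 2) / ((X + 1) ^ 2 + (K - 1) ^ 2) by positivity)
  have h2 : ((X + 1) ^ 2 + K ^ 2) / ((X + 1) ^ 2 + (K - 1) ^ 2) - 1 =
      (2 * K - 1) / ((X + 1) ^ 2 + (K - 1) ^ 2) := by
    field_simp
    ring
  have h3 : (2 * K - 1) / ((X + 1) ^ 2 + (K - 1) ^ 2) ≤ 3 / X := by
    rw [div_le_div_iff₀ hN0 hX0]
    nlinarith [sq_nonneg (K - 1 - X)]
  have e : 3 / 2 / X = 1 / 2 * (3 / X) := by ring
  rw [e]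
  linarith

lemma hor_ang' (hX : 1 ≤ X) (hK : 0 ≤ K) :
    |Real.arctan ((K + 1) / X) - Real.arctan (K / X)| ≤ 1 / X := by
  have hX0 : 0 < X := by linarith
  rw [arctan_sub' (by positivity) (by positivity)]
  have e1 : ((K + 1) / X - K / X) / (1 + K / X * ((K + 1) / X)) =
      X / (X ^ 2 + K * (K + 1)) := by
    field_simp
    ring
  have ha0 : 0 ≤ X / (X ^ 2 + K * (K + 1)) := by positivity
  rw [e1, abs_of_nonneg (by rw [← Real.arctan_zero]; exact Real.arctan_mono ha0)]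
  refine (arctan_le_self ha0).trans ?_
  rw [div_le_div_iff₀ (by positivity) hX0]
  nlinarith

lemma ver_ang' (hX : 1 ≤ X) (hK : 0 ≤ K) :
    |Real.arctan (K / (X + 1)) - Real.arctan (K / X)| ≤ 1 / X := by
  have hX0 : 0 < X := by linarith
  rw [abs_sub_comm, arctan_sub' (by positivity) (by positivity)]
  have e1 : (K / X - K / (X + 1)) / (1 + K / (X + 1) * (K / X)) =
      K / (X * (X + 1) + K ^ 2) := by
    field_simp
    ring
  have ha0 : 0 ≤ K / (X * (X + 1) + K ^ 2) := by positivity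
  rw [e1, abs_of_nonneg (by rw [← Real.arctan_zero]; exact Real.arctan_mono ha0)]
  refine (arctan_le_self ha0).trans ?_
  rw [div_le_div_iff₀ (by positivity) hX0]
  nlinarith [sq_nonneg (X - K), sq_nonneg (X + K)]

end bonds

end Vale.Agent.P159.T1.S.H757
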